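import Vale.Agent.P073.H655.RowsT
import Vale.Agent.P073.PA691.TMSpec

/-!
# P073, theorem (RT): singular sets with small slices, `p < 3`: statements of the rows
-/

namespace Vale.Agent.P073.RT

open MeasureTheory Set Filter Topology Metric
open Vale.Agent.P073.St (V Mat euc)
open Vale.Agent.P073.SQ (ev cube)
open Vale.Agent.P073.H880 (Boxes)
open _root_.P073 (ConHomeo ConicalOn ConicalWithinAt ConBall)
open _root_.P073.PR720 (LF)
open _root_.P073.PA691 (BoxCx Cells)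
open scoped ContDiff ENNReal

/-- `g` is a uniform limit of conical homeomorphisms onto the same target -/
def App (Ω Λ : Set V) (g : V → V) : Prop :=
  ∀ δ : ℝ, 0 < δ → ∃ h : ConHomeo Ω Λ, ∀ x ∈ Ω, ‖h.toFun x - g x‖ ≤ δ

/-- closed square with centre `c`, normal direction `k`, half side `r` -/
def dsk (c : V) (k : Fin 3) (r : ℝ) : Set V := {x | x k = c k ∧ ∀ l, l ≠ k → |x l - c l| ≤ r}

/-- closed plate over the square -/
def plt (c : V) (k : Fin 3) (r η : ℝ) : Set V :=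
  {x | |x k - c k| ≤ η ∧ ∀ l, l ≠ k → |x l - c l| ≤ r}

/-- open plate over the square -/
def plo (c : V) (k : Fin 3) (r η : ℝ) : Set V :=
  {x | |x k - c k| < η ∧ ∀ l, l ≠ k → |x l - c l| < r}

/-- **Row T1**: the tiles of `X` are the cells of a cell decomposition -/
structure CellFacts {Ω : Set V} {v : V} (X : BoxCx Ω v) : Prop where
  isBall : ∀ p, ConBall 3 (X.cube p) (frontier (X.cube p))
  conn : ∀ s, IsPreconnected (X.sq s \ (X.sq s \ X.sqo s))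
  dense : ∀ s, X.sq s ⊆ closure (X.sq s \ (X.sq s \ X.sqo s))
  cover : ⋃ p, X.cube p = Ω
  lf : LF X.cube Ω
  bdry : ∀ p, ∀ x ∈ frontier (X.cube p), ∃ s, X.sq s ⊆ frontier (X.cube p) ∧ x ∈ X.sq s
  used : ∀ s, ∃ p, X.sq s ⊆ frontier (X.cube p)
  off : ∀ s p, ¬ X.sq s ⊆ frontier (X.cube p) → X.sq s ∩ X.cube p ⊆ X.sq s \ X.sqo s
  sep : ∀ i j, i ≠ j → X.cube i ∩ X.cube j ⊆ frontier (X.cube i)

/-- **Row T1** -/
def SpecCells : Prop := ∀ (Ω : Set V) (v : V) (X : BoxCx Ω v), IsOpen Ω → CellFacts X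

/-- the cell decomposition -/
def cellsOf {Ω : Set V} {v : V} (X : BoxCx Ω v) (h : CellFacts X) : Cells Ω where
  J := X.T
  A := X.S
  R := X.cube
  isBall := h.isBall
  E := X.sq
  bE := fun s => X.sq s \ X.sqo s
  conn := h.conn
  dense := h.dense
  cover := h.cover
  lf := h.lf
  bdry := h.bdry
  used := h.used
  off := h.off
  sep := h.sep

/-- **Row T2** (from DISC): replacement of `g` on a square whose boundary is far from `K` by a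
conical embedding with values in the image of a thin plate -/
def SpecDR : Prop :=
  ∀ (Ω Λ K : Set V) (g : V → V) (c : V) (k : Fin 3) (r η : ℝ), IsOpen Ω → IsOpen Λ → K ⊆ Ω →
    IsOpen (Ω \ K) → St.IsHomeo Ω Λ g → (∀ x ∈ Ω \ K, ConicalWithinAt g Ω x) → App Ω Λ g →
    0 < η → 2 * η < r → plt c k (r + 2 * η) (2 * η) ⊆ Ω →
    (∀ x ∈ plt c k (r + 2 * η) (2 * η), (∃ l, l ≠ k ∧ r - 2 * η ≤ |x l - c l|) → x ∉ K) →
    ∃ (E : Set V) (e : ConHomeo (dsk c k r) E),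
      (∀ x ∈ dsk c k r, (∃ l, l ≠ k ∧ |x l - c l| = r) → e.toFun x = g x) ∧
      ∀ x ∈ dsk c k r, (∀ l, l ≠ k → |x l - c l| < r) → e.toFun x ∈ g '' plo c k r η

/-- **Row T3**: choice of small squares around a compact subset of a plane with null projections -/
def SpecSquares : Prop :=
  ∀ (K U : Set V) (k : Fin 3) (a : ℝ), IsOpen U → IsOpen (U \ K) →
    IsCompact (K ∩ U ∩ {x | x k = a}) →
    (∀ j, j ≠ k → volume ((fun x : V => x j) '' (K ∩ U ∩ {x | x k = a})) = 0) →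
    ∃ (F : Finset V) (r η : ℝ), 0 < η ∧ 2 * η < r ∧ (∀ c ∈ F, c k = a) ∧
      (∀ c ∈ F, plt c k (r + 2 * η) (2 * η) ⊆ U) ∧
      (∀ c ∈ F, ∀ c' ∈ F, c ≠ c' →
        Disjoint (plt c k (r + 2 * η) (2 * η)) (plt c' k (r + 2 * η) (2 * η))) ∧
      (∀ c ∈ F, ∀ x ∈ plt c k (r + 2 * η) (2 * η),
        (∃ l, l ≠ k ∧ r - 2 * η ≤ |x l - c l|) → x ∉ K) ∧
      (∀ c ∈ F, (dsk c k r ∩ K).Nonempty) ∧
      ∀ x ∈ K ∩ U ∩ {x | x k = a}, ∃ c ∈ F, ∀ l, l ≠ k → |x l - c l| < r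

/-- **Row T4** (T1, T2, T3 and ASM): the new homeomorphism. It is `g` off `A` and off the open tiles
which meet `K`. -/
def SpecTop : Prop :=
  ∀ (Ω Λ K N : Set V) (g : V → V) (v : V) (X : BoxCx Ω v), IsOpen Ω → IsConnected Ω → IsOpen Λ →
    IsConnected Λ → K ⊆ Ω → IsOpen (Ω \ K) → St.IsHomeo Ω Λ g →
    (∀ x ∈ Ω \ K, ConicalWithinAt g Ω x) → App Ω Λ g → (∀ x ∈ K, ∀ e, x ∉ X.edge e) →
    (∀ s, ∀ j, j ≠ X.nrm s → volume ((fun x : V => x j) '' (K ∩ X.sq s)) = 0) →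
    IsOpen N → N ⊆ Ω → (∀ s, K ∩ X.sq s ⊆ N) →
    ∃ (h : ConHomeo Ω Λ) (A : Set V), A ⊆ Ω ∧ IsOpen (Ω \ A) ∧ (∀ s, K ∩ X.sq s ⊆ A) ∧
      (∀ x ∈ A, h.toFun x ∈ g '' N) ∧ (∀ x ∈ A, ∃ p, (X.cube p ∩ K).Nonempty ∧ x ∈ X.cube p) ∧
      ∀ x ∈ Ω, x ∉ A → (∀ p, (X.cube p ∩ K).Nonempty → ¬ ∀ l, X.lo p l < x l ∧ x l < X.hi p l) →
        h.toFun x = g x

/-- **Row G3**: a homeomorphism which is close to a Sobolev homeomorphism in the Lipschitz sense is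
a uniform limit of conical homeomorphisms (`NetOutN` with the empty graph; `g - f` is Lipschitz on
the segments of `Ω`, so `RatAC o Ω f` gives `RatAC o Ω g`) -/
def SpecApp : Prop :=
  ∀ (p : ℝ) (Ω Λ K : Set V) (f g : V → V) (F : V → Mat), 1 ≤ p → St.IsBoundedDomain Ω →
    St.IsBoundedDomain Λ → St.IsHomeo Ω Λ f → St.IsSobolev p Ω f F → St.IsHomeo Ω Λ g →
    K ⊆ Ω → IsOpen (Ω \ K) → (∀ x ∈ K, g x = f x) →
    (K.Nonempty → ∀ x ∈ Ω \ K, ‖g x - f x‖ ≤ infDist x K) →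
    (∀ x ∈ Ω \ K, ∀ᶠ y in 𝓝 x, ‖(g y - g x) - (f y - f x)‖ ≤ 1 * ‖y - x‖) → App Ω Λ g

/-- **Row G5**: choice of the tiling. `W` is the family of the tiles which meet `K`. -/
def SpecTiling : Prop :=
  ∀ (Ω K : Set V) (H : V → ℝ≥0∞) (ε : ℝ) (P : Fin 3 → ℝ → Prop), IsOpen Ω → Ω.Nonempty →
    Bornology.IsBounded Ω → K ⊆ Ω → IsOpen (Ω \ K) → (∀ k, ∀ᵐ t : ℝ, P k t) →
    (∀ k, ∀ᵐ t : ℝ, ∀ j, j ≠ k → volume ((fun x : V => x j) '' (K ∩ {x | x k = t})) = 0) →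
    Measurable H → ∫⁻ x in Ω, H x ≠ ⊤ → 0 < ε →
    ∃ (v : V) (X : BoxCx Ω v) (W : Boxes Ω ∅),
      (∀ i, ∃ p, cube (W.c i) (W.ρ i) = X.cube p ∧ (X.cube p ∩ K).Nonempty) ∧
      (∀ p, (X.cube p ∩ K).Nonempty → ∃ i, cube (W.c i) (W.ρ i) = X.cube p) ∧
      (∀ x ∈ K, ∀ e, x ∉ X.edge e) ∧ (∀ s, P (X.nrm s) (X.slo s (X.nrm s))) ∧
      volume (⋃ i, cube (W.c i) (W.ρ i)) ≤ ENNReal.ofReal ε ∧
      ∫⁻ x in ⋃ i, cube (W.c i) (W.ρ i), H x ≤ ENNReal.ofReal ε ∧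
      ∑' i, ∑ k, ∑ σ ∈ ({1, -1} : Finset ℝ),
        ∫⁻ x in cube (W.c i) (W.ρ i), H (Function.update x k (W.c i k + σ * W.ρ i)) ≤
          ENNReal.ofReal ε

/-- the slices of `K` are small, and `f` maps them to small sets -/
def SmallSlices (K : Set V) (f : V → V) : Prop :=
  ∀ k : Fin 3, ∀ᵐ t : ℝ,
    (∀ j, j ≠ k → volume ((fun x : V => x j) '' (K ∩ {x | x k = t})) = 0) ∧
    ∀ i, volume ((fun x : V => f x i) '' (K ∩ {x | x k = t})) = 0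

/-- **Row Z1**: sets of sigma-finite length -/
def SpecLength : Prop :=
  ∀ (K : Set V) (f : V → V) (Kn : ℕ → Set V), K ⊆ ⋃ n, Kn n → (∀ n, μH[1] (Kn n) ≠ ⊤) →
    SmallSlices K f

/-- **Row Z2**: sets of area zero, locally Lipschitz maps -/
def SpecArea : Prop :=
  ∀ (Ω K : Set V) (f : V → V), IsOpen Ω → K ⊆ Ω → μH[2] K = 0 →
    (∀ x ∈ Ω, ∃ (C : NNReal) (U : Set V), U ∈ 𝓝 x ∧ LipschitzOnWith C f U) → SmallSlices K f

end Vale.Agent.P073.RT
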