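import Vale.Agent.P073.RT.An7
import Vale.Agent.P073.H705.Sqz2

/-!
# P073, theorem (RT) over the topological rows
-/

namespace Vale.Agent.P073.RT

open MeasureTheory Set Filter Topology Metric
open Vale.Agent.P073.St (V Mat euc)
open Vale.Agent.P073.SQ (ev cube dE SuppDiffeo)
open Vale.Agent.P073.AB (cl err ofReal_norm_rpow diffeo_smooth diffeo_maps)
open Vale.Agent.P073.H655 (ocube oU cU FineOff SqzC)
open Vale.Agent.P073.H880
open _root_.P073 (ConHomeo ConicalOn ConicalWithinAt)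
open scoped ContDiff ENNReal

variable {p : ℝ} {Ω Λ K K' : Set V}

theorem null_of_small (hΩ : IsOpen Ω) (hK : K ⊆ Ω) (hKo : IsOpen (Ω \ K)) {f : V → V}
    (hsl : SmallSlices K f) : volume K = 0 := by
  have hm : MeasurableSet K := by
    have e : K = Ω \ (Ω \ K) := (sdiff_sdiff_cancel_left hK).symm
    rw [e]
    exact hΩ.measurableSet.diff hKo.measurableSet
  exact H739.null_of_slices hm ((hsl 0).mono fun t h => h.1)

/-- **theorem (RT)**: singular sets with small slices, `p < 3` -/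
theorem main_RT (hApp : SpecApp) (hTop : SpecTop) (hp : 1 ≤ p) (hp3 : p < 3)
    (hΩ : St.IsBoundedDomain Ω) (hΛ : St.IsBoundedDomain Λ) (hK : K ⊆ Ω) (hKo : IsOpen (Ω \ K))
    {f : V → V} {F : V → Mat} (hf : St.IsHomeo Ω Λ f) (hF : St.IsSobolev p Ω f F)
    (hO : FineOff Ω Λ K f F) (hsl : SmallSlices K f) :
    St.DiffeoApproximable p Ω Λ f F := by
  rcases K.eq_empty_or_nonempty with hKe | hKn
  · subst hKe
    exact main_R' hp hp3 hΩ hΛ hK hKo hf hF hO (fun k => by simp)
  obtain ⟨C, hC, hsq⟩ := exists_squeeze H705.specCube3 hp hp3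
  obtain ⟨CT, -, hCT⟩ := H655.specSqz_iff.1 H705.specSqz
  obtain ⟨D, -, hD⟩ := AB.norm_bound_of_domain hΛ
  have hv := PK.volume_ne_top_of_domain hΩ
  have hcont : ContinuousOn f Ω := by
    obtain ⟨k, -, h, -⟩ := hf
    exact h
  refine approximable_of hp hΩ hΛ hcont hF
    (b := fun k : ℕ => A3 p C (max CT 1) D (volume Ω) * ENNReal.ofReal (1 / ((k : ℝ) + 1))) ?_
    (fun k => ENNReal.mul_ne_top (A3_ne_top hC hv) ENNReal.ofReal_ne_top)
    (fun k => one_step3 hp hΩ hΛ hApp hTop hf hF hK hKn hKo (null_of_small hΩ.1 hK hKo hsl) hO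
      hsl hsq hCT hD (by positivity) ?_)
  · have h1 := ENNReal.tendsto_ofReal (tendsto_one_div_add_atTop_nhds_zero_nat (𝕜 := ℝ))
    rw [ENNReal.ofReal_zero] at h1
    have h2 := ENNReal.Tendsto.const_mul (a := A3 p C (max CT 1) D (volume Ω)) h1
      (Or.inr (A3_ne_top hC hv))
    rwa [mul_zero] at h2
  · rw [div_le_one (by positivity)]
    have : (0 : ℝ) ≤ k := Nat.cast_nonneg k
    linarith

end Vale.Agent.P073.RT
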