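import Vale.Agent.P073.RT.An5
import Vale.Agent.P073.H739.BoxesIn

/-!
# P073, theorem (RT): analysis, part 6: the data in the target, the smooth map
-/

namespace Vale.Agent.P073.RT

open MeasureTheory Set Filter Topology Metric
open Vale.Agent.P073.St (V Mat euc)
open Vale.Agent.P073.SQ (ev cube dE SuppDiffeo)
open Vale.Agent.P073.AB (cl err ofReal_norm_rpow diffeo_smooth diffeo_maps)
open Vale.Agent.P073.H655 (ocube oU cU FineOff SqzC)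
open Vale.Agent.P073.H880
open _root_.P073 (ConHomeo ConicalOn ConicalWithinAt)
open _root_.P073.PR720 (LF)
open _root_.P073.PA691 (BoxCx Cells)
open scoped ContDiff ENNReal

variable {p : ℝ} {Ω Λ K K' : Set V}

theorem isOpen_image {g : V → V} (hΛ : IsOpen Λ) (hg : St.IsHomeo Ω Λ g) {N : Set V}
    (hN : IsOpen N) (hNΩ : N ⊆ Ω) : IsOpen (g '' N) := by
  obtain ⟨k, ⟨hgk, hkg⟩, -, hkc⟩ := hg
  have e : g '' N = Λ ∩ k ⁻¹' N := by
    ext y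
    constructor
    · rintro ⟨x, hx, rfl⟩
      refine ⟨(hgk x (hNΩ hx)).1, ?_⟩
      show k (g x) ∈ N
      rw [(hgk x (hNΩ hx)).2]
      exact hx
    · rintro ⟨hy, hy'⟩
      exact ⟨k y, hy', (hkg y hy).2⟩
  rw [e]
  exact hkc.isOpen_inter_preimage hΛ hN

theorem homeo_inj {g : V → V} (hg : St.IsHomeo Ω Λ g) {x y : V} (hx : x ∈ Ω) (hy : y ∈ Ω)
    (h : g x = g y) : x = y := by
  obtain ⟨k, ⟨hgk, -⟩, -⟩ := hg
  rw [← (hgk x hx).2, ← (hgk y hy).2, h]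

/-- the target cubes and the sets `U` -/
theorem target_data (hp : 1 ≤ p) {CT : ℝ} (hCT : SqzC CT) (hΩ : St.IsBoundedDomain Ω)
    (hΛ : St.IsBoundedDomain Λ) (hK' : K' ⊆ Ω) (hK'o : IsOpen (Ω \ K')) {g : V → V}
    (hg : St.IsHomeo Ω Λ g) (hnull : ∀ l : Fin 3, volume ((fun y : V => y l) '' (g '' K')) = 0)
    (hK'0 : volume K' = 0) {H : V → ℝ≥0∞} (hH : ∫⁻ x in Ω, H x ≠ ⊤) {t : ℝ} (ht : 0 < t) :
    ∃ (N1 : Set V) (W2 : Boxes Λ (g '' K')) (κ : ℝ) (U : W2.ι → Set V),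
      IsOpen N1 ∧ N1 ⊆ Ω ∧ ∫⁻ x in N1, H x ≤ ENNReal.ofReal t ∧ IsOpen (g '' N1) ∧
      cU W2 ⊆ g '' N1 ∧ 0 < κ ∧ κ ≤ t / 2 ∧
      ENNReal.ofReal (κ ^ p) * ∫⁻ x in Ω, H x ≤ ENNReal.ofReal t ∧
      (∀ i, IsOpen (U i)) ∧ (∀ i, U i ⊆ cube (W2.c i) (W2.ρ i)) ∧ g '' K' ⊆ ⋃ i, U i ∧
      ∀ ε : W2.ι → ℝ, (∀ i, 0 < ε i) → (∀ i, ε i ≤ 1) →
        ∃ T : V → V, IsSqz (max CT 1) Λ (g '' K') W2 U κ ε T := by
  obtain ⟨N1, n1, n2, n3, n4⟩ := exists_open_small hΩ.1 hH hK' hK'0 ht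
  have ho := isOpen_image hΛ.1 hg n1 n3
  have hgN : g '' N1 ⊆ Λ := by
    rintro _ ⟨x, hx, rfl⟩
    exact homeo_maps hg (n3 hx)
  have hop := H655.isOpen_diff_image hΛ.1 hK' hK'o hg
  obtain ⟨W2, hW2⟩ := H739.specBoxesIn Λ (g '' K') (g '' N1) hΛ.1
    (PK.isBounded_of_domain hΛ) ho (image_mono n2) hgN hop hnull
  obtain ⟨ε, e1, -, e3⟩ := exists_ratio hp (ι := Unit) (E := fun _ => ∫⁻ x in Ω, H x)
    (fun _ => hH) (e := fun _ => t) (fun _ => ht)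
  have hκ : 0 < min (ε ()) (t / 2) := lt_min (e1 ()) (by linarith)
  obtain ⟨U, u1, u2, u3, u4⟩ := exists_sqz3 hCT hΛ.1 hop hnull W2 hκ
  refine ⟨N1, W2, min (ε ()) (t / 2), U, n1, n3, n4, ho, iUnion_subset hW2, hκ,
    min_le_right _ _, ?_, u1, u2, u3, u4⟩
  refine le_trans ?_ (e3 ())
  gcongr
  · exact min_le_left _ _

theorem dist_lt_of {s : ℝ} {C : Set V} {x y : V} (h1 : ‖x - y‖ ≤ s) (h2 : s < infDist y C) :
    x ∉ C := by
  intro hx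
  have h3 := infDist_le_dist_of_mem (x := y) hx
  rw [dist_comm, dist_eq_norm] at h3
  linarith

/-- the smooth map -/
theorem exists_G (hp : 1 ≤ p) (hΩ : St.IsBoundedDomain Ω) (hΛ : St.IsBoundedDomain Λ)
    {g : V → V} (hg : St.IsHomeo Ω Λ g) (W : Boxes Ω ∅) (h : ConHomeo Ω Λ) {A : Set V}
    (hAo : IsOpen (Ω \ A)) {ι : Type} {U : ι → Set V} (hUo : ∀ i, IsOpen (U i))
    (hUΛ : ∀ i, U i ⊆ Λ) (hAU : ∀ x ∈ A, h.toFun x ∈ ⋃ i, U i) {N1 : Set V} (hN1 : N1 ⊆ Ω)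
    (hN1o : IsOpen (g '' N1)) (W2 : Boxes Λ K') (hW2 : cU W2 ⊆ g '' N1)
    (hh : ∀ x ∈ Ω, x ∉ cU W → h.toFun x = g x) {t : ℝ} (ht : 0 < t) {e : W.ι → ℝ}
    (he : ∀ i, 0 < e i) :
    ∃ G : V → V, St.IsDiffeo Ω Λ G ∧ (∀ x ∈ Ω, ‖G x - h.toFun x‖ ≤ t / 2) ∧
      (∀ i k, ∀ σ ∈ ({1, -1} : Finset ℝ), ∀ j, j ≠ k → ∫⁻ x in cube (W.c i) (W.ρ i),
        ENNReal.ofReal (‖fderiv ℝ G (Function.update x k (W.c i k + σ * W.ρ i)) (ev j) -
          lineDeriv ℝ h.toFun (Function.update x k (W.c i k + σ * W.ρ i)) (ev j)‖ ^ p) ≤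
        ENNReal.ofReal (e i)) ∧
      (∀ j, ∫⁻ x in Ω, ENNReal.ofReal (‖fderiv ℝ G x (ev j) - fderiv ℝ h.toFun x (ev j)‖ ^ p) ≤
        ENNReal.ofReal t) ∧
      (∀ x ∈ A, x ∈ Ω → ∃ i, G x ∈ U i) ∧
      ∀ x ∈ Ω, x ∉ cU W → G x ∈ cU W2 → x ∈ N1 := by
  have hgN : g '' N1 ⊆ Λ := by
    rintro _ ⟨x, hx, rfl⟩
    exact homeo_maps hg (hN1 hx)
  have hΩc : (Ωᶜ).Nonempty := H739.compl_nonempty (PK.isBounded_of_domain hΩ) Subset.rfl
  have hΛc : (Λᶜ).Nonempty := H739.compl_nonempty (PK.isBounded_of_domain hΛ) Subset.rfl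
  obtain ⟨s1, a1, a2, a3⟩ := exists_gap (Ω := Ω) (F1 := h.toFun) (F2 := id) h.cont
    continuousOn_id (C1 := (⋃ i, U i)ᶜ) (C2 := (Ω \ A)ᶜ)
    (isOpen_iUnion hUo).isClosed_compl hAo.isClosed_compl
    (hΛc.mono (compl_subset_compl.2 (iUnion_subset hUΛ)))
    (hΩc.mono (compl_subset_compl.2 sdiff_subset))
    (fun x hx => by
      by_cases hxA : x ∈ A
      · exact Or.inl (by rw [notMem_compl_iff]; exact hAU x hxA)
      · exact Or.inr (by rw [notMem_compl_iff]; exact ⟨hx, hxA⟩))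
  have hcl : IsClosed (cU W2 ∪ Λᶜ) := by
    have : cU W2 ∪ Λᶜ = (Λ \ cU W2)ᶜ := by
      ext y
      simp only [mem_union, mem_compl_iff, Set.mem_sdiff, not_and, not_not]
      constructor
      · rintro (h1 | h1)
        · exact fun _ => h1
        · exact fun h2 => absurd h2 h1
      · intro h1
        by_cases h2 : y ∈ Λ
        · exact Or.inl (h1 h2)
        · exact Or.inr h2
    rw [this, isClosed_compl_iff, isOpen_iff_mem_nhds]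
    rintro y ⟨hy, hy'⟩
    filter_upwards [H655.eventually_notMem_cU W2 hy hy', hΛ.1.mem_nhds hy] with z hz hz'
    exact ⟨hz', hz⟩
  obtain ⟨s2, b1, b2, b3⟩ := exists_gap (Ω := Ω) (F1 := h.toFun) (F2 := h.toFun) h.cont h.cont
    (C1 := cU W2 ∪ Λᶜ) (C2 := (g '' N1)ᶜ) hcl hN1o.isClosed_compl
    (hΛc.mono subset_union_right) (hΛc.mono (compl_subset_compl.2 hgN))
    (fun x hx => by
      by_cases hx1 : h.toFun x ∈ cU W2 ∪ Λᶜ
      · refine Or.inr ?_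
        rw [notMem_compl_iff]
        rcases hx1 with hx1 | hx1
        · exact hW2 hx1
        · exact absurd (h.mapsTo hx) hx1
      · exact Or.inl hx1)
  obtain ⟨G, g1, g2, g3, g4⟩ := exists_smooth2 hp hΩ hΛ W h
    (s := fun x => min (t / 2) (min (s1 x) (s2 x)))
    (continuousOn_const.inf (a1.inf b1))
    (fun x hx => lt_min (by linarith) (lt_min (a2 x hx) (b2 x hx))) ht he
  refine ⟨G, g1, fun x hx => (g2 x hx).trans (min_le_left _ _), g3, g4, ?_, ?_⟩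
  · intro x hxA hx
    have h1 := a3 x hx (fun h2 => h2.2 hxA)
    have h2 := dist_lt_of
      ((g2 x hx).trans ((min_le_right _ _).trans (min_le_left _ _))) h1
    rw [notMem_compl_iff] at h2
    exact mem_iUnion.1 h2
  · intro x hx hxW hGx
    by_contra hx1
    have h0 : h.toFun x ∈ (g '' N1)ᶜ := by
      rw [hh x hx hxW]
      rintro ⟨z, hz, hz'⟩
      exact hx1 (homeo_inj hg (hN1 hz) hx hz' ▸ hz)
    have h1 := b3 x hx h0
    exact dist_lt_of ((g2 x hx).trans ((min_le_right _ _).trans (min_le_right _ _))) h1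
      (Or.inl hGx)

end Vale.Agent.P073.RT
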