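import Vale.Agent.P073.RT.Rows
import Vale.Agent.P073.H655.MapT
import Vale.Agent.P073.H880.AsmS2

/-!
# P073, theorem (RT): analysis, part 1
-/

namespace Vale.Agent.P073.RT

open MeasureTheory Set Filter Topology Metric
open Vale.Agent.P073.St (V Mat euc)
open Vale.Agent.P073.SQ (ev cube dE SuppDiffeo)
open Vale.Agent.P073.AB (cl err ofReal_norm_rpow diffeo_smooth diffeo_maps)
open Vale.Agent.P073.H655 (ocube oU cU FineOff)
open Vale.Agent.P073.H880
open _root_.P073 (ConHomeo ConicalOn ConicalWithinAt)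
open scoped ContDiff ENNReal

variable {p : ℝ} {Ω Λ K : Set V}

/-- smoothing with control on the faces, variable accuracy -/
theorem exists_smooth2 (hp : 1 ≤ p) (hΩ : St.IsBoundedDomain Ω) (hΛ : St.IsBoundedDomain Λ)
    (W : Boxes Ω K) (h : ConHomeo Ω Λ) {s : V → ℝ} (hs : ContinuousOn s Ω)
    (hs0 : ∀ x ∈ Ω, 0 < s x) {δ : ℝ} (hδ : 0 < δ) {e : W.ι → ℝ} (he : ∀ i, 0 < e i) :
    ∃ G : V → V, St.IsDiffeo Ω Λ G ∧ (∀ x ∈ Ω, ‖G x - h.toFun x‖ ≤ s x) ∧
      (∀ i k, ∀ σ ∈ ({1, -1} : Finset ℝ), ∀ j, j ≠ k → ∫⁻ x in cube (W.c i) (W.ρ i),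
        ENNReal.ofReal (‖fderiv ℝ G (Function.update x k (W.c i k + σ * W.ρ i)) (ev j) -
          lineDeriv ℝ h.toFun (Function.update x k (W.c i k + σ * W.ρ i)) (ev j)‖ ^ p) ≤
        ENNReal.ofReal (e i)) ∧
      ∀ j, ∫⁻ x in Ω, ENNReal.ofReal (‖fderiv ℝ G x (ev j) - fderiv ℝ h.toFun x (ev j)‖ ^ p) ≤
        ENNReal.ofReal δ := by
  have := W.cnt
  obtain ⟨G, hG, hGs, hclose, -, hflat, hvol⟩ := _root_.P073.SMF.specSmooth _root_.P073.SM.specSM
    p Ω Λ h s δ hp hΩ hΛ hs hs0 hδ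
    Empty inferInstance (fun i => i.elim) (fun i => i.elim) (fun i => i.elim) (fun i => i.elim)
    (fun i => i.elim) (fun K _ _ => Set.toFinite _) (fun i => i.elim)
    (W.ι × Fin 3 × Bool) inferInstance (fun q => q.2.1)
    (fun q => W.c q.1 q.2.1 + sg q.2.2 * W.ρ q.1) (fun q => cube (W.c q.1) (W.ρ q.1))
    (fun q => e q.1) (fun q => H655.isCompact_cube (W.pos q.1))
    (fun q x hx => W.sub q.1 (face_mem W q.1 q.2.1 (sg_mem _) hx))
    (fun A hA hAc => by
      refine ((W.finite_compact hA hAc).prod (finite_univ (α := Fin 3 × Bool))).subset ?_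
      rintro q ⟨x, hx, hxA⟩
      exact ⟨⟨_, face_mem W q.1 q.2.1 (sg_mem _) hx, hxA⟩, mem_univ _⟩)
    (fun q => he q.1)
  refine ⟨G, hG, hclose, fun i k σ hσ j hj => ?_, hvol⟩
  obtain ⟨b, rfl⟩ := exists_sg hσ
  exact hflat (i, k, b) j hj

/-- on the faces off `A` the tangential derivatives of `h` and of `g` agree -/
theorem lineDeriv_face2 (W : Boxes Ω ∅) {A : Set V} (hA : IsOpen (Ω \ A)) {g h : V → V}
    (hh : ∀ x ∈ Ω, x ∉ A → (∀ i, ¬ ∀ l, |x l - W.c i l| < W.ρ i) → h x = g x) (i : W.ι) (k : Fin 3)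
    {σ : ℝ} (hσ : σ ∈ ({1, -1} : Finset ℝ)) {x : V} (hx : x ∈ ocube (W.c i) (W.ρ i)) {j : Fin 3}
    (hj : j ≠ k) (hyA : Function.update x k (W.c i k + σ * W.ρ i) ∉ A) :
    lineDeriv ℝ h (Function.update x k (W.c i k + σ * W.ρ i)) (ev j) =
      lineDeriv ℝ g (Function.update x k (W.c i k + σ * W.ρ i)) (ev j) := by
  have hyc : Function.update x k (W.c i k + σ * W.ρ i) ∈ cube (W.c i) (W.ρ i) :=
    face_mem W i k hσ (H655.ocube_subset hx)
  set y := Function.update x k (W.c i k + σ * W.ρ i) with hy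
  refine Filter.EventuallyEq.deriv_eq ?_
  have hlim : Tendsto (fun t : ℝ => y + t • ev j) (𝓝 0) (𝓝 y) := by
    have hc : Continuous fun t : ℝ => y + t • ev j := by fun_prop
    have := hc.tendsto 0
    simpa using this
  have hc : ∀ l, Continuous fun t : ℝ => |(y + t • ev j) l - W.c i l| := fun l => by
    simp only [Pi.add_apply, Pi.smul_apply]
    fun_prop
  have h1 : ∀ l, l ≠ k → ∀ᶠ t : ℝ in 𝓝 0, |(y + t • ev j) l - W.c i l| < W.ρ i := by
    intro l hl
    refine (hc l).continuousAt.eventually_lt_const ?_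
    simp only [zero_smul, add_zero]
    rw [hy, Function.update_of_ne hl]
    exact hx l
  have h2 : ∀ᶠ t : ℝ in 𝓝 0, ∀ l, l ≠ k → |(y + t • ev j) l - W.c i l| < W.ρ i := by
    rw [eventually_all]
    intro l
    by_cases hl : l = k
    · filter_upwards with t h; exact absurd hl h
    · filter_upwards [h1 l hl] with t ht _ using ht
  have h3 : ∀ᶠ t : ℝ in 𝓝 0, y + t • ev j ∈ Ω \ A :=
    hlim.eventually (hA.mem_nhds ⟨W.sub i hyc, hyA⟩)
  filter_upwards [h2, h3] with t ht ht3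
  have hk : (y + t • ev j) k = W.c i k + σ * W.ρ i := by
    have : ev j k = 0 := by
      unfold ev; rw [Pi.single_eq_of_ne (Ne.symm hj)]
    rw [Pi.add_apply, Pi.smul_apply, this, smul_zero, add_zero, hy, Function.update_self]
  have hmem : y + t • ev j ∈ cube (W.c i) (W.ρ i) := by
    intro l
    by_cases hl : l = k
    · subst hl
      rw [hk, add_sub_cancel_left, abs_mul, sgn_sq hσ, one_mul, abs_of_pos (W.pos i)]
    · exact (ht l hl).le
  exact hh _ ht3.1 ht3.2 (face_notMem W i k hσ hmem hk)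

/-- the energy density of `G` on `Ω ∩ G⁻¹(U)` -/
noncomputable def Ph (p : ℝ) (Ω : Set V) (G : V → V) (U : Set V) (j : Fin 3) : V → ℝ≥0∞ :=
  (Ω ∩ G ⁻¹' U).indicator (dE p G j)

theorem continuousOn_dE (hp : 1 ≤ p) {G : V → V} (hG : St.IsDiffeo Ω Λ G) (hΩ : IsOpen Ω)
    (j : Fin 3) : ContinuousOn (dE p G j) Ω := by
  have h1 : ContinuousOn (fun x => fderiv ℝ G x (ev j)) Ω :=
    ((diffeo_smooth hG).continuousOn_fderiv_of_isOpen hΩ (by simp)).clm_apply continuousOn_const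
  unfold dE
  exact ENNReal.continuous_ofReal.comp_continuousOn
    (h1.norm.rpow_const fun x _ => Or.inr (by linarith))

theorem measurable_Ph (hp : 1 ≤ p) {G : V → V} (hG : St.IsDiffeo Ω Λ G) (hΩ : IsOpen Ω)
    {U : Set V} (hU : IsOpen U) (j : Fin 3) : Measurable (Ph p Ω G U j) := by
  have h1 : IsOpen (Ω ∩ G ⁻¹' U) := (diffeo_smooth hG).continuousOn.isOpen_inter_preimage hΩ hU
  have h2 : ContinuousOn (dE p G j) (Ω ∩ G ⁻¹' U) :=
    (continuousOn_dE hp hG hΩ j).mono inter_subset_left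
  unfold Ph
  classical
  rw [← piecewise_eq_indicator]
  exact h2.measurable_piecewise continuousOn_const h1.measurableSet

/-- the energy of `G` on the faces of the cube `q`, where `G` has values in `U` -/
noncomputable def facesU (p : ℝ) (W : Boxes Ω K) (G : V → V) (U : Set V) (q : W.ι) : ℝ≥0∞ :=
  ∑ k, ∑ σ ∈ ({1, -1} : Finset ℝ), ∑ j ∈ Finset.univ.erase k,
    ∫⁻ x in cube (W.c q) (W.ρ q), Ph p Ω G U j (Function.update x k (W.c q k + σ * W.ρ q))

theorem facesU_ne_top (hp : 1 ≤ p) {G : V → V} (hG : St.IsDiffeo Ω Λ G) (hΩ : IsOpen Ω)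
    (W : Boxes Ω K) (U : Set V) (q : W.ι) : facesU p W G U q ≠ ⊤ := by
  unfold facesU
  refine ENNReal.sum_ne_top.2 fun k _ => ENNReal.sum_ne_top.2 fun σ hσ =>
    ENNReal.sum_ne_top.2 fun j _ => ?_
  have hcomp := H655.isCompact_cube (c := W.c q) (W.pos q)
  have h1 : ContinuousOn (fun x => ‖fderiv ℝ G x (ev j)‖ ^ p) (cube (W.c q) (W.ρ q)) := by
    have h2 : ContinuousOn (fun x => fderiv ℝ G x (ev j)) Ω :=
      ((diffeo_smooth hG).continuousOn_fderiv_of_isOpen hΩ (by simp)).clm_apply continuousOn_const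
    exact (h2.mono (W.sub q)).norm.rpow_const fun x _ => Or.inr (by linarith)
  obtain ⟨M, hM⟩ := hcomp.bddAbove_image h1
  refine ne_top_of_le_ne_top (b := ENNReal.ofReal M * volume (cube (W.c q) (W.ρ q))) ?_ ?_
  · exact ENNReal.mul_ne_top ENNReal.ofReal_ne_top hcomp.measure_ne_top
  · rw [← setLIntegral_const]
    refine setLIntegral_mono' hcomp.isClosed.measurableSet fun x hx => ?_
    refine (indicator_le_self _ _ _).trans ?_
    unfold dE
    exact ENNReal.ofReal_le_ofReal (hM ⟨_, face_mem W q k hσ hx, rfl⟩)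

/-- finiteness of the energy on the faces over a compact subset of the target -/
theorem tsum_facesU_ne_top (hp : 1 ≤ p) {G : V → V} (hG : St.IsDiffeo Ω Λ G) (hΩ : IsOpen Ω)
    (W : Boxes Ω K) {U Q : Set V} (hUQ : U ⊆ Q) (hQ : IsCompact Q) (hQΛ : Q ⊆ Λ) :
    ∑' q, facesU p W G U q ≠ ⊤ := by
  have := W.cnt
  have hcomp : IsCompact (Ω ∩ G ⁻¹' Q) := by
    obtain ⟨k, ⟨h1, h2⟩, h3, h4⟩ := hG
    have hk : ContinuousOn k Λ := (AB.smooth_of_sm h4).continuousOn
    have e1 : Ω ∩ G ⁻¹' Q = k '' Q := by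
      ext x
      constructor
      · rintro ⟨hx, hxQ⟩
        exact ⟨G x, hxQ, (h1 x hx).2⟩
      · rintro ⟨y, hy, rfl⟩
        refine ⟨(h2 y (hQΛ hy)).1, ?_⟩
        show G (k y) ∈ Q
        rw [(h2 y (hQΛ hy)).2]
        exact hy
    rw [e1]
    exact hQ.image_of_continuousOn (hk.mono hQΛ)
  have hfin := W.finite_compact inter_subset_left hcomp
  have hz : ∀ q ∉ hfin.toFinset, facesU p W G U q = 0 := by
    intro q hq
    have hq' : ¬ (cube (W.c q) (W.ρ q) ∩ (Ω ∩ G ⁻¹' Q)).Nonempty := by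
      intro h
      exact hq (hfin.mem_toFinset.2 h)
    unfold facesU
    refine Finset.sum_eq_zero fun k _ => Finset.sum_eq_zero fun σ hσ =>
      Finset.sum_eq_zero fun j _ => ?_
    rw [setLIntegral_congr_fun (g := fun _ => 0) (SQ.isClosed_cube _ _).measurableSet
      fun x hx => ?_]
    · simp
    · show Ph p Ω G U j _ = 0
      unfold Ph
      refine indicator_of_notMem (fun h => hq' ⟨_, face_mem W q k hσ hx, h.1, hUQ h.2⟩) _
  rw [tsum_eq_sum hz]
  exact ENNReal.sum_ne_top.2 fun q _ => facesU_ne_top hp hG hΩ W U q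

/-- choice of the ratios -/
theorem exists_ratio (hp : 1 ≤ p) {ι : Type} {E : ι → ℝ≥0∞} (hE : ∀ i, E i ≠ ⊤) {e : ι → ℝ}
    (he : ∀ i, 0 < e i) :
    ∃ ε : ι → ℝ, (∀ i, 0 < ε i) ∧ (∀ i, ε i ≤ 1) ∧
      ∀ i, ENNReal.ofReal (ε i ^ p) * E i ≤ ENNReal.ofReal (e i) := by
  have h1 : ∀ i, ∃ ε : ℝ, 0 < ε ∧ ε ≤ 1 ∧ ENNReal.ofReal (ε ^ p) * E i ≤ ENNReal.ofReal (e i) := by
    intro i
    set a : ℝ := (E i).toReal with ha
    have ha0 : 0 ≤ a := ENNReal.toReal_nonneg
    refine ⟨min 1 (e i / (a + 1)), lt_min one_pos (div_pos (he i) (by positivity)),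
      min_le_left _ _, ?_⟩
    set ε := min 1 (e i / (a + 1)) with hε
    have hε0 : 0 ≤ ε := (lt_min one_pos (div_pos (he i) (by positivity))).le
    have h2 : ε ^ p ≤ ε := rpow_le_of_le_one hp hε0 (min_le_left _ _)
    have h3 : ε * a ≤ e i := by
      have h4 : ε ≤ e i / (a + 1) := min_le_right _ _
      have h5 : ε * (a + 1) ≤ e i := (le_div_iff₀ (by positivity)).1 h4
      nlinarith
    rw [← ENNReal.ofReal_toReal (hE i), ← ENNReal.ofReal_mul (by positivity)]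
    refine ENNReal.ofReal_le_ofReal ?_
    calc ε ^ p * a ≤ ε * a := mul_le_mul_of_nonneg_right h2 ha0
      _ ≤ e i := h3
  choose ε h2 h3 h4 using h1
  exact ⟨ε, h2, h3, h4⟩

end Vale.Agent.P073.RT
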