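import Vale.Agent.P073.RT.An1

/-!
# P073, theorem (RT): analysis, part 2: the faces
-/

namespace Vale.Agent.P073.RT

open MeasureTheory Set Filter Topology Metric
open Vale.Agent.P073.St (V Mat euc)
open Vale.Agent.P073.SQ (ev cube dE SuppDiffeo)
open Vale.Agent.P073.AB (cl err ofReal_norm_rpow diffeo_smooth diffeo_maps)
open Vale.Agent.P073.H655 (ocube oU cU FineOff)
open Vale.Agent.P073.H880
open _root_.P073 (ConHomeo ConicalOn ConicalWithinAt)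
open scoped ContDiff ENNReal

variable {p : ℝ} {Ω Λ K K' : Set V}

/-- the properties of the squeezing map of the target -/
structure IsSqz (C : ℝ) (Λ K' : Set V) (W : Boxes Λ K') (U : W.ι → Set V) (κ : ℝ) (ε : W.ι → ℝ)
    (T : V → V) : Prop where
  diffeo : St.IsDiffeo Λ Λ T
  near : ∀ y ∈ Λ, ‖T y - y‖ ≤ κ
  bdd : ∀ y ∈ Λ, ‖fderiv ℝ T y‖ ≤ C
  small : ∀ i, ∀ y ∈ U i, fderiv ℝ T y = ε i • ContinuousLinearMap.id ℝ V
  off : ∀ y ∈ Λ, y ∉ cU W → ‖fderiv ℝ T y - ContinuousLinearMap.id ℝ V‖ ≤ κ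

theorem diffeo_diffAt (hΩ : IsOpen Ω) {G : V → V} (hG : St.IsDiffeo Ω Λ G) {x : V} (hx : x ∈ Ω) :
    DifferentiableAt ℝ G x :=
  ((diffeo_smooth hG).contDiffAt (hΩ.mem_nhds hx)).differentiableAt (by simp)

theorem fderiv_TG (hΩ : IsOpen Ω) (hΛ : IsOpen Λ) {G T : V → V} (hG : St.IsDiffeo Ω Λ G)
    (hT : St.IsDiffeo Λ Λ T) {x : V} (hx : x ∈ Ω) (v : V) :
    fderiv ℝ (T ∘ G) x v = fderiv ℝ T (G x) (fderiv ℝ G x v) := by
  rw [fderiv_comp x (diffeo_diffAt hΛ hT (diffeo_maps hG hx)) (diffeo_diffAt hΩ hG hx)]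
  rfl

theorem dE_comp_le (hp : 1 ≤ p) (hΩ : IsOpen Ω) (hΛ : IsOpen Λ) {G T : V → V} {C : ℝ}
    (hC : 0 ≤ C)
    (hG : St.IsDiffeo Ω Λ G) (hT : St.IsDiffeo Λ Λ T) {x : V} (hx : x ∈ Ω)
    (hTC : ‖fderiv ℝ T (G x)‖ ≤ C) (j : Fin 3) :
    dE p (T ∘ G) j x ≤ ENNReal.ofReal (C ^ p) * dE p G j x := by
  have hp0 : 0 ≤ p := by linarith
  unfold dE
  rw [fderiv_TG hΩ hΛ hG hT hx, ← ENNReal.ofReal_mul (by positivity),
    ← Real.mul_rpow hC (norm_nonneg _)]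
  refine ENNReal.ofReal_le_ofReal (Real.rpow_le_rpow (norm_nonneg _) ?_ hp0)
  exact ((fderiv ℝ T (G x)).le_opNorm _).trans (mul_le_mul_of_nonneg_right hTC (norm_nonneg _))

theorem dE_comp_small (hΩ : IsOpen Ω) (hΛ : IsOpen Λ) {G T : V → V}
    {W : Boxes Λ K'} {U : W.ι → Set V} {C κ : ℝ} {ε : W.ι → ℝ} (hε : ∀ i, 0 < ε i)
    (hG : St.IsDiffeo Ω Λ G) (hT : IsSqz C Λ K' W U κ ε T) {x : V} (hx : x ∈ Ω) {i : W.ι}
    (hi : G x ∈ U i) (j : Fin 3) :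
    dE p (T ∘ G) j x ≤ ∑' m, ENNReal.ofReal (ε m ^ p) * Ph p Ω G (U m) j x := by
  have h1 : dE p (T ∘ G) j x = ENNReal.ofReal (ε i ^ p) * Ph p Ω G (U i) j x := by
    unfold Ph
    rw [indicator_of_mem (show x ∈ Ω ∩ G ⁻¹' U i from ⟨hx, hi⟩)]
    unfold dE
    rw [fderiv_TG hΩ hΛ hG hT.diffeo hx, hT.small i _ hi, ContinuousLinearMap.smul_apply,
      ContinuousLinearMap.id_apply, norm_smul, Real.norm_of_nonneg (hε i).le,
      Real.mul_rpow (hε i).le (norm_nonneg _),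
      ENNReal.ofReal_mul (Real.rpow_nonneg (hε i).le _)]
  rw [h1]
  exact ENNReal.le_tsum i

/-- the energy of `T ∘ G` on a face -/
theorem face_le3 (hp : 1 ≤ p) (hΩ : IsOpen Ω) (hΛ : IsOpen Λ) (hKo : IsOpen (Ω \ K))
    {g G h T : V → V} (hgc : ContinuousOn g (Ω \ K)) (W : Boxes Ω ∅) {A : Set V}
    (hA : IsOpen (Ω \ A))
    (hKA : ∀ i k, ∀ σ ∈ ({1, -1} : Finset ℝ), ∀ x ∈ cube (W.c i) (W.ρ i),
      x k = W.c i k + σ * W.ρ i → x ∈ K → x ∈ A)
    (hh : ∀ x ∈ Ω, x ∉ A → (∀ i, ¬ ∀ l, |x l - W.c i l| < W.ρ i) → h x = g x)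
    {W2 : Boxes Λ K'} {U : W2.ι → Set V} (hUo : ∀ i, IsOpen (U i)) {C κ : ℝ} (hC : 0 ≤ C)
    {ε : W2.ι → ℝ} (hε : ∀ i, 0 < ε i) (hG : St.IsDiffeo Ω Λ G) (hT : IsSqz C Λ K' W2 U κ ε T)
    (hGA : ∀ x ∈ A, x ∈ Ω → ∃ i, G x ∈ U i) {e : W.ι → ℝ} (i : W.ι) (k : Fin 3) {σ : ℝ}
    (hσ : σ ∈ ({1, -1} : Finset ℝ)) {j : Fin 3} (hj : j ≠ k)
    (hGe : ∫⁻ x in cube (W.c i) (W.ρ i),
        ENNReal.ofReal (‖fderiv ℝ G (Function.update x k (W.c i k + σ * W.ρ i)) (ev j) -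
          lineDeriv ℝ h (Function.update x k (W.c i k + σ * W.ρ i)) (ev j)‖ ^ p) ≤
        ENNReal.ofReal (e i)) :
    ∫⁻ x in cube (W.c i) (W.ρ i), dE p (T ∘ G) j (Function.update x k (W.c i k + σ * W.ρ i)) ≤
      ENNReal.ofReal (C ^ p) * (2 ^ (p - 1) * (ENNReal.ofReal (e i) +
        ∫⁻ x in cube (W.c i) (W.ρ i),
          Hg p (Ω \ K) g (Function.update x k (W.c i k + σ * W.ρ i)))) +
      ∑' m, ENNReal.ofReal (ε m ^ p) * ∫⁻ x in cube (W.c i) (W.ρ i),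
        Ph p Ω G (U m) j (Function.update x k (W.c i k + σ * W.ρ i)) := by
  have := W2.cnt
  have hup : Measurable fun x : V => Function.update x k (W.c i k + σ * W.ρ i) :=
    (continuous_id.update k continuous_const).measurable
  have hHm : Measurable fun x : V =>
      Hg p (Ω \ K) g (Function.update x k (W.c i k + σ * W.ρ i)) :=
    (measurable_Hg hKo hgc).comp hup
  have hPm : ∀ m, Measurable fun x : V => ENNReal.ofReal (ε m ^ p) *
      Ph p Ω G (U m) j (Function.update x k (W.c i k + σ * W.ρ i)) := fun m =>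
    ((measurable_Ph hp hG hΩ (hUo m) j).comp hup).const_mul _
  have hpt : ∀ᵐ x ∂(volume.restrict (cube (W.c i) (W.ρ i))),
      dE p (T ∘ G) j (Function.update x k (W.c i k + σ * W.ρ i)) ≤
      ENNReal.ofReal (C ^ p) * (2 ^ (p - 1) * (ENNReal.ofReal
        (‖fderiv ℝ G (Function.update x k (W.c i k + σ * W.ρ i)) (ev j) -
          lineDeriv ℝ h (Function.update x k (W.c i k + σ * W.ρ i)) (ev j)‖ ^ p) +
        Hg p (Ω \ K) g (Function.update x k (W.c i k + σ * W.ρ i)))) +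
      ∑' m, ENNReal.ofReal (ε m ^ p) *
        Ph p Ω G (U m) j (Function.update x k (W.c i k + σ * W.ρ i)) := by
    filter_upwards [ae_open_cube (W.c i) (ρ := W.ρ i)] with x hx
    have hyc : Function.update x k (W.c i k + σ * W.ρ i) ∈ cube (W.c i) (W.ρ i) :=
      face_mem W i k hσ (H655.ocube_subset hx)
    have h2 := lineDeriv_face2 W hA hh i k hσ hx hj
    set y := Function.update x k (W.c i k + σ * W.ρ i) with hy
    have hyk : y k = W.c i k + σ * W.ρ i := by rw [hy, Function.update_self]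
    have hyΩ : y ∈ Ω := W.sub i hyc
    by_cases hyA : y ∈ A
    · obtain ⟨m, hm⟩ := hGA y hyA hyΩ
      exact (dE_comp_small hΩ hΛ hε hG hT hyΩ hm j).trans le_add_self
    · have hyK : y ∉ K := fun h => hyA (hKA i k σ hσ y hyc hyk h)
      refine le_trans ?_ le_self_add
      refine (dE_comp_le hp hΩ hΛ hC hG hT.diffeo hyΩ
        (hT.bdd _ (diffeo_maps hG hyΩ)) j).trans ?_
      gcongr
      have h3 := add_rpow_le hp (fderiv ℝ G y (ev j) - lineDeriv ℝ h y (ev j))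
        (lineDeriv ℝ h y (ev j))
      rw [sub_add_cancel] at h3
      unfold dE
      refine h3.trans ?_
      gcongr
      rw [h2 hyA]
      exact le_self_add.trans (le_Hg (⟨hyΩ, hyK⟩ : y ∈ Ω \ K) j)
  refine (lintegral_mono_ae hpt).trans ?_
  rw [lintegral_add_right _ (Measurable.ennreal_tsum hPm),
    lintegral_const_mul' _ _ ENNReal.ofReal_ne_top,
    lintegral_const_mul' _ _ two_rpow_ne_top, lintegral_add_right _ hHm,
    lintegral_tsum fun m => (hPm m).aemeasurable]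
  refine add_le_add ?_ (le_of_eq ?_)
  · gcongr
  · congr 1
    funext m
    rw [lintegral_const_mul' _ _ ENNReal.ofReal_ne_top]

end Vale.Agent.P073.RT
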