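import Vale.Agent.P073.RT.An2

/-!
# P073, theorem (RT): analysis, part 3: sums, small neighbourhoods
-/

namespace Vale.Agent.P073.RT

open MeasureTheory Set Filter Topology Metric
open Vale.Agent.P073.St (V Mat euc)
open Vale.Agent.P073.SQ (ev cube dE SuppDiffeo)
open Vale.Agent.P073.AB (cl err ofReal_norm_rpow diffeo_smooth diffeo_maps)
open Vale.Agent.P073.H655 (ocube oU cU FineOff)
open Vale.Agent.P073.H880
open _root_.P073 (ConHomeo ConicalOn ConicalWithinAt)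
open scoped ContDiff ENNReal

variable {p : ℝ} {Ω Λ K K' : Set V}

/-- the energy of `T ∘ G` on the faces of a cube -/
theorem facesE_le3 (hp : 1 ≤ p) (hΩ : IsOpen Ω) (hΛ : IsOpen Λ) (hKo : IsOpen (Ω \ K))
    {g G h T : V → V} (hgc : ContinuousOn g (Ω \ K)) (W : Boxes Ω ∅) {A : Set V}
    (hA : IsOpen (Ω \ A))
    (hKA : ∀ i k, ∀ σ ∈ ({1, -1} : Finset ℝ), ∀ x ∈ cube (W.c i) (W.ρ i),
      x k = W.c i k + σ * W.ρ i → x ∈ K → x ∈ A)
    (hh : ∀ x ∈ Ω, x ∉ A → (∀ i, ¬ ∀ l, |x l - W.c i l| < W.ρ i) → h x = g x)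
    {W2 : Boxes Λ K'} {U : W2.ι → Set V} (hUo : ∀ i, IsOpen (U i)) {C κ : ℝ} (hC : 0 ≤ C)
    {ε : W2.ι → ℝ} (hε : ∀ i, 0 < ε i) (hG : St.IsDiffeo Ω Λ G) (hT : IsSqz C Λ K' W2 U κ ε T)
    (hGA : ∀ x ∈ A, x ∈ Ω → ∃ i, G x ∈ U i) {e : W.ι → ℝ} (i : W.ι)
    (hGe : ∀ k, ∀ σ ∈ ({1, -1} : Finset ℝ), ∀ j, j ≠ k → ∫⁻ x in cube (W.c i) (W.ρ i),
        ENNReal.ofReal (‖fderiv ℝ G (Function.update x k (W.c i k + σ * W.ρ i)) (ev j) -
          lineDeriv ℝ h (Function.update x k (W.c i k + σ * W.ρ i)) (ev j)‖ ^ p) ≤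
        ENNReal.ofReal (e i)) :
    facesE p W (T ∘ G) i ≤
      ENNReal.ofReal (C ^ p) * (2 ^ (p - 1) * (12 * ENNReal.ofReal (e i) + 2 *
        ∑ k, ∑ σ ∈ ({1, -1} : Finset ℝ), ∫⁻ x in cube (W.c i) (W.ρ i),
          Hg p (Ω \ K) g (Function.update x k (W.c i k + σ * W.ρ i)))) +
      ∑' m, ENNReal.ofReal (ε m ^ p) * facesU p W G (U m) i := by
  unfold facesE facesU
  have h1 : ∀ k, ∀ σ ∈ ({1, -1} : Finset ℝ), ∑ j ∈ Finset.univ.erase k,
      ∫⁻ x in cube (W.c i) (W.ρ i), dE p (T ∘ G) j (Function.update x k (W.c i k + σ * W.ρ i)) ≤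
      2 * (ENNReal.ofReal (C ^ p) * (2 ^ (p - 1) * (ENNReal.ofReal (e i) +
        ∫⁻ x in cube (W.c i) (W.ρ i),
          Hg p (Ω \ K) g (Function.update x k (W.c i k + σ * W.ρ i))))) +
      ∑ j ∈ Finset.univ.erase k, ∑' m, ENNReal.ofReal (ε m ^ p) *
        ∫⁻ x in cube (W.c i) (W.ρ i),
          Ph p Ω G (U m) j (Function.update x k (W.c i k + σ * W.ρ i)) := by
    intro k σ hσ
    refine (Finset.sum_le_sum fun j hj => face_le3 hp hΩ hΛ hKo hgc W hA hKA hh hUo hC hε hG hT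
      hGA i k hσ (Finset.ne_of_mem_erase hj) (hGe k σ hσ j (Finset.ne_of_mem_erase hj))).trans ?_
    rw [Finset.sum_add_distrib, Finset.sum_const, Finset.card_erase_of_mem (Finset.mem_univ k),
      Finset.card_univ, Fintype.card_fin, nsmul_eq_mul]
    norm_num
  refine (Finset.sum_le_sum fun k _ => Finset.sum_le_sum fun σ hσ => h1 k σ hσ).trans ?_
  simp only [Finset.sum_add_distrib]
  refine add_le_add (le_of_eq ?_) (le_of_eq ?_)
  · have hne : (1 : ℝ) ≠ -1 := by norm_num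
    simp only [Finset.sum_pair hne, Fin.sum_univ_three]
    ring
  · simp only [Finset.mul_sum]
    rw [Summable.tsum_finsetSum fun _ _ => ENNReal.summable]
    refine Finset.sum_congr rfl fun k _ => ?_
    rw [Summable.tsum_finsetSum fun _ _ => ENNReal.summable]
    refine Finset.sum_congr rfl fun σ _ => ?_
    rw [Summable.tsum_finsetSum fun _ _ => ENNReal.summable]

/-- the constant of the faces -/
noncomputable def B3 (p C : ℝ) : ℝ≥0∞ := ENNReal.ofReal (C ^ p) * (2 ^ (p - 1) * 14) + 1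

theorem B3_ne_top {C : ℝ} : B3 p C ≠ ⊤ := by
  unfold B3
  exact ENNReal.add_ne_top.2 ⟨ENNReal.mul_ne_top ENNReal.ofReal_ne_top
    (ENNReal.mul_ne_top two_rpow_ne_top (by simp)), by simp⟩

theorem faces_sum3 {C : ℝ} (W : Boxes Ω ∅) {G : V → V} {e : W.ι → ℝ} {Hs : W.ι → ℝ≥0∞} {t : ℝ}
    {ι : Type} {c : ι → ℝ≥0∞} {M : ι → W.ι → ℝ≥0∞} {e' : ι → ℝ}
    (h1 : ∀ i, facesE p W G i ≤ ENNReal.ofReal (C ^ p) * (2 ^ (p - 1) *
      (12 * ENNReal.ofReal (e i) + 2 * Hs i)) + ∑' m, c m * M m i)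
    (he : ∑' i, ENNReal.ofReal (e i) ≤ ENNReal.ofReal t) (hs : ∑' i, Hs i ≤ ENNReal.ofReal t)
    (hM : ∀ m, c m * ∑' i, M m i ≤ ENNReal.ofReal (e' m))
    (he' : ∑' m, ENNReal.ofReal (e' m) ≤ ENNReal.ofReal t) :
    ∑' i, facesE p W G i ≤ B3 p C * ENNReal.ofReal t := by
  calc ∑' i, facesE p W G i ≤ ∑' i, (ENNReal.ofReal (C ^ p) * (2 ^ (p - 1) *
      (12 * ENNReal.ofReal (e i) + 2 * Hs i)) + ∑' m, c m * M m i) :=
        ENNReal.tsum_le_tsum h1
    _ = ENNReal.ofReal (C ^ p) * (2 ^ (p - 1) * (12 * (∑' i, ENNReal.ofReal (e i)) +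
          2 * ∑' i, Hs i)) + ∑' m, c m * ∑' i, M m i := by
        rw [ENNReal.tsum_add, ENNReal.tsum_mul_left, ENNReal.tsum_mul_left, ENNReal.tsum_add,
          ENNReal.tsum_mul_left, ENNReal.tsum_mul_left, ENNReal.tsum_comm]
        congr 2
        funext m
        rw [ENNReal.tsum_mul_left]
    _ ≤ ENNReal.ofReal (C ^ p) * (2 ^ (p - 1) * (12 * ENNReal.ofReal t +
          2 * ENNReal.ofReal t)) + ENNReal.ofReal t := by
        gcongr
        exact (ENNReal.tsum_le_tsum hM).trans he'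
    _ = _ := by unfold B3; ring

/-- small neighbourhoods of null sets -/
theorem exists_open_small {H : V → ℝ≥0∞} (hΩ : IsOpen Ω) (hfin : ∫⁻ x in Ω, H x ≠ ⊤) {E : Set V}
    (hE : E ⊆ Ω) (hE0 : volume E = 0) {t : ℝ} (ht : 0 < t) :
    ∃ N : Set V, IsOpen N ∧ E ⊆ N ∧ N ⊆ Ω ∧ ∫⁻ x in N, H x ≤ ENNReal.ofReal t := by
  obtain ⟨δ, hδ, hd⟩ := exists_pos_setLIntegral_lt_of_measure_lt (μ := volume.restrict Ω) hfin
    (ENNReal.ofReal_pos.2 ht).ne'
  obtain ⟨N, hEN, hN, hNδ⟩ := E.exists_isOpen_lt_of_lt (μ := volume) δ (by rw [hE0]; exact hδ)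
  refine ⟨N ∩ Ω, hN.inter hΩ, fun x hx => ⟨hEN hx, hE hx⟩, inter_subset_right, ?_⟩
  have h1 := hd (N ∩ Ω) ((Measure.restrict_apply_le _ _).trans_lt
    ((measure_mono inter_subset_left).trans_lt hNδ))
  rw [Measure.restrict_restrict (hN.inter hΩ).measurableSet, inter_assoc, inter_self] at h1
  exact h1.le

/-- two open conditions as one function -/
theorem exists_gap {F1 F2 : V → V} (h1 : ContinuousOn F1 Ω) (h2 : ContinuousOn F2 Ω)
    {C1 C2 : Set V} (hC1 : IsClosed C1) (hC2 : IsClosed C2) (hn1 : C1.Nonempty)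
    (hn2 : C2.Nonempty) (h : ∀ x ∈ Ω, F1 x ∉ C1 ∨ F2 x ∉ C2) :
    ∃ s : V → ℝ, ContinuousOn s Ω ∧ (∀ x ∈ Ω, 0 < s x) ∧
      ∀ x ∈ Ω, F2 x ∈ C2 → s x < infDist (F1 x) C1 := by
  refine ⟨fun x => max (infDist (F1 x) C1) (infDist (F2 x) C2) / 2, ?_, ?_, ?_⟩
  · have a1 : ContinuousOn (fun x => infDist (F1 x) C1) Ω :=
      (continuous_infDist_pt C1).comp_continuousOn h1
    have a2 : ContinuousOn (fun x => infDist (F2 x) C2) Ω :=
      (continuous_infDist_pt C2).comp_continuousOn h2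
    exact (ContinuousOn.sup a1 a2).div_const 2
  · intro x hx
    rcases h x hx with h3 | h3
    · have := (hC1.notMem_iff_infDist_pos hn1).1 h3
      have h4 : infDist (F1 x) C1 ≤ max (infDist (F1 x) C1) (infDist (F2 x) C2) := le_max_left _ _
      linarith
    · have := (hC2.notMem_iff_infDist_pos hn2).1 h3
      have h4 : infDist (F2 x) C2 ≤ max (infDist (F1 x) C1) (infDist (F2 x) C2) := le_max_right _ _
      linarith
  · intro x hx hx2
    have h3 : F1 x ∉ C1 := by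
      rcases h x hx with h4 | h4
      · exact h4
      · exact absurd hx2 h4
    have h4 := (hC1.notMem_iff_infDist_pos hn1).1 h3
    have h5 : infDist (F2 x) C2 = 0 := infDist_zero_of_mem hx2
    show max (infDist (F1 x) C1) (infDist (F2 x) C2) / 2 < _
    rw [h5, max_eq_left h4.le]
    linarith

end Vale.Agent.P073.RT
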