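import Vale.Agent.P073.RT.An3

/-!
# P073, theorem (RT): analysis, part 4: the error off the cubes
-/

namespace Vale.Agent.P073.RT

open MeasureTheory Set Filter Topology Metric
open Vale.Agent.P073.St (V Mat euc)
open Vale.Agent.P073.SQ (ev cube dE SuppDiffeo)
open Vale.Agent.P073.AB (cl err ofReal_norm_rpow diffeo_smooth diffeo_maps)
open Vale.Agent.P073.H655 (ocube oU cU FineOff)
open Vale.Agent.P073.H880
open _root_.P073 (ConHomeo ConicalOn ConicalWithinAt)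
open scoped ContDiff ENNReal

variable {p : ℝ} {Ω Λ K K' : Set V}

theorem ae_near (hΩ : St.IsBoundedDomain Ω) {f g : V → V} {F : V → Mat}
    (hae : ∀ᵐ x ∂(volume : Measure V), x ∈ Ω \ K → DifferentiableAt ℝ f x ∧
      ∀ j, cl (F x) (ev j) = fderiv ℝ f x (ev j)) {t : ℝ} (ht : 0 ≤ t)
    (hgd : ∀ x ∈ Ω \ K, ∀ᶠ y in 𝓝 x, ‖(g y - g x) - (f y - f x)‖ ≤ t * ‖y - x‖)
    (W : Boxes Ω ∅) (hKc : K ⊆ cU W) (h : ConHomeo Ω Λ)
    (hh : ∀ x ∈ Ω, x ∉ cU W → h.toFun x = g x) (j : Fin 3) :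
    ∀ᵐ x ∂(volume : Measure V), x ∈ Ω \ cU W →
      ‖fderiv ℝ h.toFun x (ev j) - cl (F x) (ev j)‖ ≤ t ∧
      ENNReal.ofReal (‖fderiv ℝ h.toFun x (ev j)‖ ^ p) ≤ Hg p (Ω \ K) g x := by
  have hnull := _root_.P073.measure_singular_eq_zero (volume : Measure V) hΩ.1 h.conical h.cont
  rw [measure_eq_zero_iff_ae_notMem] at hnull
  filter_upwards [hnull, hae] with x hx1 hx2 hx
  have hxU : x ∈ Ω \ K := ⟨hx.1, fun h => hx.2 (hKc h)⟩
  obtain ⟨hfd, hx3⟩ := hx2 hxU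
  have htop : _root_.P073.linSpace h.toFun x = ⊤ := by
    by_contra hcon
    exact hx1 ⟨hx.1, hcon⟩
  have hcd : ContDiffAt ℝ ∞ h.toFun x :=
    _root_.P073.contDiffAt_of_top (h.conical.conicalAt hΩ.1 hx.1) htop
  have hhd : DifferentiableAt ℝ h.toFun x := hcd.differentiableAt (by simp)
  have heq : h.toFun =ᶠ[𝓝 x] g := by
    filter_upwards [H655.eventually_notMem_cU W hx.1 hx.2, hΩ.1.mem_nhds hx.1] with z hzU hzΩ
    exact hh z hzΩ hzU
  have hev : ∀ᶠ z in 𝓝 x, ‖(h.toFun z - h.toFun x) - (f z - f x)‖ ≤ t * ‖z - x‖ := by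
    filter_upwards [hgd x hxU, heq] with z hz hzU
    rwa [hzU, heq.eq_of_nhds]
  have h1 := norm_fderiv_sub_le ht hfd hhd hev
  refine ⟨?_, ?_⟩
  · rw [hx3 j]
    have h2 := (fderiv ℝ h.toFun x - fderiv ℝ f x).le_opNorm (ev j)
    rw [norm_ev, mul_one] at h2
    exact h2.trans h1
  · rw [← hhd.lineDeriv_eq_fderiv, heq.lineDeriv_eq]
    exact le_self_add.trans (le_Hg hxU j)

/-- the constant off the cubes -/
noncomputable def C3 (p C : ℝ) (v : ℝ≥0∞) : ℝ≥0∞ :=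
  2 ^ (p - 1) * (ENNReal.ofReal (C ^ p) + 2 ^ (p - 1) * (1 + ENNReal.ofReal ((C + 1) ^ p) + v))

theorem C3_ne_top {C : ℝ} {v : ℝ≥0∞} (hv : v ≠ ⊤) : C3 p C v ≠ ⊤ := by
  unfold C3
  exact ENNReal.mul_ne_top two_rpow_ne_top (ENNReal.add_ne_top.2 ⟨ENNReal.ofReal_ne_top,
    ENNReal.mul_ne_top two_rpow_ne_top (ENNReal.add_ne_top.2 ⟨ENNReal.add_ne_top.2
      ⟨by simp, ENNReal.ofReal_ne_top⟩, hv⟩)⟩)

theorem off_part3 (hp : 1 ≤ p) (hΩ : St.IsBoundedDomain Ω) (hΛ : St.IsBoundedDomain Λ)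
    (hKo : IsOpen (Ω \ K)) {f g : V → V} {F : V → Mat}
    (hae : ∀ᵐ x ∂(volume : Measure V), x ∈ Ω \ K → DifferentiableAt ℝ f x ∧
      ∀ j, cl (F x) (ev j) = fderiv ℝ f x (ev j)) {t : ℝ} (ht : 0 ≤ t) (ht1 : t ≤ 1)
    (hgc : ContinuousOn g (Ω \ K))
    (hgd : ∀ x ∈ Ω \ K, ∀ᶠ y in 𝓝 x, ‖(g y - g x) - (f y - f x)‖ ≤ t * ‖y - x‖)
    (W : Boxes Ω ∅) (hKc : K ⊆ cU W) (h : ConHomeo Ω Λ)
    (hh : ∀ x ∈ Ω, x ∉ cU W → h.toFun x = g x) {G T S : V → V} (hG : St.IsDiffeo Ω Λ G)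
    {W2 : Boxes Λ K'} {U : W2.ι → Set V} {C κ : ℝ} {ε : W2.ι → ℝ} (hC : 0 ≤ C) (hκ : 0 ≤ κ)
    (hT : IsSqz C Λ K' W2 U κ ε T) (hS : ∀ x, x ∉ cU W → S x = x)
    {N1 : Set V} (hN1 : IsOpen N1) (hN : ∀ x ∈ Ω, x ∉ cU W → G x ∈ cU W2 → x ∈ N1)
    (hGd : ∀ j, ∫⁻ x in Ω,
      ENNReal.ofReal (‖fderiv ℝ G x (ev j) - fderiv ℝ h.toFun x (ev j)‖ ^ p) ≤ ENNReal.ofReal t)
    (hH1 : ∫⁻ x in N1, Hg p (Ω \ K) g x ≤ ENNReal.ofReal t)
    (hH2 : ENNReal.ofReal (κ ^ p) * ∫⁻ x in Ω, Hg p (Ω \ K) g x ≤ ENNReal.ofReal t) (j : Fin 3) :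
    ∫⁻ x in Ω \ cU W, ENNReal.ofReal
      (‖fderiv ℝ ((T ∘ G) ∘ S) x (ev j) - cl (F x) (ev j)‖ ^ p) ≤
      C3 p C (volume Ω) * ENNReal.ofReal t := by
  have hp0 : 0 ≤ p := by linarith
  have hcm := measurableSet_cU W
  have hHm : Measurable (Hg p (Ω \ K) g) := measurable_Hg hKo hgc
  have hA : MeasurableSet (Ω \ cU W) := hΩ.1.measurableSet.diff hcm
  have hpt : ∀ᵐ x ∂(volume.restrict (Ω \ cU W)), ENNReal.ofReal
      (‖fderiv ℝ ((T ∘ G) ∘ S) x (ev j) - cl (F x) (ev j)‖ ^ p) ≤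
      2 ^ (p - 1) * (ENNReal.ofReal (C ^ p) *
        ENNReal.ofReal (‖fderiv ℝ G x (ev j) - fderiv ℝ h.toFun x (ev j)‖ ^ p) +
        2 ^ (p - 1) * ((ENNReal.ofReal (κ ^ p) * Hg p (Ω \ K) g x +
          N1.indicator (fun x => ENNReal.ofReal ((C + 1) ^ p) * Hg p (Ω \ K) g x) x) +
          ENNReal.ofReal t)) := by
    filter_upwards [ae_restrict_of_ae (ae_near (p := p) hΩ hae ht hgd W hKc h hh j),
      ae_restrict_mem hA] with x hx hxA
    obtain ⟨hx1, hx2⟩ := hx hxA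
    have hxΛ := diffeo_maps hG hxA.1
    have e0 : fderiv ℝ ((T ∘ G) ∘ S) x = fderiv ℝ (T ∘ G) x := by
      refine Filter.EventuallyEq.fderiv_eq ?_
      filter_upwards [H655.eventually_notMem_cU W hxA.1 hxA.2] with y hy
      show (T ∘ G) (S y) = (T ∘ G) y
      rw [hS y hy]
    rw [e0, fderiv_TG hΩ.1 hΛ.1 hG hT.diffeo hxA.1]
    set L := fderiv ℝ T (G x) with hL
    set a := fderiv ℝ G x (ev j) with ha
    set b := fderiv ℝ h.toFun x (ev j) with hb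
    have hLC : ‖L‖ ≤ C := hT.bdd _ hxΛ
    have e1 : L a - cl (F x) (ev j) = L (a - b) + ((L b - b) + (b - cl (F x) (ev j))) := by
      rw [map_sub]; abel
    rw [e1]
    refine (add_rpow_le hp _ _).trans ?_
    gcongr
    · rw [← ENNReal.ofReal_mul (by positivity), ← Real.mul_rpow hC (norm_nonneg _)]
      refine ENNReal.ofReal_le_ofReal (Real.rpow_le_rpow (norm_nonneg _) ?_ hp0)
      exact (L.le_opNorm _).trans (mul_le_mul_of_nonneg_right hLC (norm_nonneg _))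
    · refine (add_rpow_le hp _ _).trans ?_
      gcongr
      · by_cases hGx : G x ∈ cU W2
        · refine le_trans ?_ le_add_self
          rw [indicator_of_mem (hN x hxA.1 hxA.2 hGx)]
          have h3 : ‖L b - b‖ ≤ (C + 1) * ‖b‖ := by
            have h4 := norm_sub_le (L b) b
            have h5 := (L.le_opNorm b).trans (mul_le_mul_of_nonneg_right hLC (norm_nonneg b))
            linarith
          calc ENNReal.ofReal (‖L b - b‖ ^ p) ≤ ENNReal.ofReal (((C + 1) * ‖b‖) ^ p) :=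
                ENNReal.ofReal_le_ofReal (Real.rpow_le_rpow (norm_nonneg _) h3 hp0)
            _ = ENNReal.ofReal ((C + 1) ^ p) * ENNReal.ofReal (‖b‖ ^ p) := by
                rw [Real.mul_rpow (by linarith) (norm_nonneg _),
                  ENNReal.ofReal_mul (by positivity)]
            _ ≤ _ := by gcongr
        · refine le_trans ?_ le_self_add
          have h3 : ‖L b - b‖ ≤ κ * ‖b‖ := by
            have h4 := (L - ContinuousLinearMap.id ℝ V).le_opNorm b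
            have h5 : (L - ContinuousLinearMap.id ℝ V) b = L b - b := rfl
            rw [h5] at h4
            exact h4.trans (mul_le_mul_of_nonneg_right (hT.off _ hxΛ hGx) (norm_nonneg b))
          calc ENNReal.ofReal (‖L b - b‖ ^ p) ≤ ENNReal.ofReal ((κ * ‖b‖) ^ p) :=
                ENNReal.ofReal_le_ofReal (Real.rpow_le_rpow (norm_nonneg _) h3 hp0)
            _ = ENNReal.ofReal (κ ^ p) * ENNReal.ofReal (‖b‖ ^ p) := by
                rw [Real.mul_rpow hκ (norm_nonneg _), ENNReal.ofReal_mul (by positivity)]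
            _ ≤ _ := by gcongr
      · calc ‖b - cl (F x) (ev j)‖ ^ p ≤ t ^ p :=
              Real.rpow_le_rpow (norm_nonneg _) hx1 hp0
          _ ≤ t := rpow_le_of_le_one hp ht ht1
  refine (lintegral_mono_ae hpt).trans ?_
  have hm1 : Measurable fun x => N1.indicator
      (fun x => ENNReal.ofReal ((C + 1) ^ p) * Hg p (Ω \ K) g x) x :=
    (hHm.const_mul _).indicator hN1.measurableSet
  have hm2 : Measurable fun x => ENNReal.ofReal (κ ^ p) * Hg p (Ω \ K) g x +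
      N1.indicator (fun x => ENNReal.ofReal ((C + 1) ^ p) * Hg p (Ω \ K) g x) x :=
    (hHm.const_mul _).add hm1
  rw [lintegral_const_mul' _ _ two_rpow_ne_top,
    lintegral_add_right _ ((hm2.add_const _).const_mul _),
    lintegral_const_mul' _ _ ENNReal.ofReal_ne_top, lintegral_const_mul' _ _ two_rpow_ne_top,
    lintegral_add_right _ measurable_const, lintegral_add_right _ hm1,
    lintegral_const_mul' _ _ ENNReal.ofReal_ne_top, setLIntegral_const]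
  have i1 : ∫⁻ x in Ω \ cU W,
      ENNReal.ofReal (‖fderiv ℝ G x (ev j) - fderiv ℝ h.toFun x (ev j)‖ ^ p) ≤
      ENNReal.ofReal t := (lintegral_mono_set sdiff_subset).trans (hGd j)
  have i2 : ENNReal.ofReal (κ ^ p) * ∫⁻ x in Ω \ cU W, Hg p (Ω \ K) g x ≤ ENNReal.ofReal t :=
    le_trans (by gcongr; exact sdiff_subset) hH2
  have i3 : ∫⁻ x in Ω \ cU W, N1.indicator
      (fun x => ENNReal.ofReal ((C + 1) ^ p) * Hg p (Ω \ K) g x) x ≤
      ENNReal.ofReal ((C + 1) ^ p) * ENNReal.ofReal t := by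
    rw [lintegral_indicator hN1.measurableSet, lintegral_const_mul' _ _ ENNReal.ofReal_ne_top]
    gcongr
    refine le_trans ?_ hH1
    exact lintegral_mono' (Measure.restrict_mono_measure Measure.restrict_le_self _) le_rfl
  have i4 : ENNReal.ofReal t * volume (Ω \ cU W) ≤ ENNReal.ofReal t * volume Ω := by
    gcongr
    exact sdiff_subset
  calc _ ≤ 2 ^ (p - 1) * (ENNReal.ofReal (C ^ p) * ENNReal.ofReal t +
        2 ^ (p - 1) * ((ENNReal.ofReal t + ENNReal.ofReal ((C + 1) ^ p) * ENNReal.ofReal t) +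
          ENNReal.ofReal t * volume Ω)) := by
        gcongr
    _ = _ := by unfold C3; ring

end Vale.Agent.P073.RT
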