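import Vale.Agent.P073.RT.An4
import Vale.Agent.P073.RT.H741.Cells
import Vale.Agent.P073.RT.H739.Tiling

/-!
# P073, theorem (RT): analysis, part 5: the singular set on the grid
-/

namespace Vale.Agent.P073.RT

open MeasureTheory Set Filter Topology Metric
open Vale.Agent.P073.St (V Mat euc)
open Vale.Agent.P073.SQ (ev cube dE SuppDiffeo)
open Vale.Agent.P073.AB (cl err ofReal_norm_rpow diffeo_smooth diffeo_maps)
open Vale.Agent.P073.H655 (ocube oU cU FineOff SqzC)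
open Vale.Agent.P073.H880
open _root_.P073 (ConHomeo ConicalOn ConicalWithinAt)
open _root_.P073.PR720 (LF)
open _root_.P073.PA691 (BoxCx Cells)
open scoped ContDiff ENNReal

variable {p : ℝ} {Ω Λ K K' : Set V}

/-- the squeezing maps -/
theorem exists_sqz3 {C : ℝ} (hC : SqzC C) (hΛ : IsOpen Λ)
    (hK' : IsOpen (Λ \ K')) (hnull : ∀ l : Fin 3, volume ((fun y : V => y l) '' K') = 0)
    (W : Boxes Λ K') {κ : ℝ} (hκ : 0 < κ) :
    ∃ U : W.ι → Set V, (∀ i, IsOpen (U i)) ∧ (∀ i, U i ⊆ cube (W.c i) (W.ρ i)) ∧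
      K' ⊆ ⋃ i, U i ∧ ∀ ε : W.ι → ℝ, (∀ i, 0 < ε i) → (∀ i, ε i ≤ 1) →
        ∃ T : V → V, IsSqz (max C 1) Λ K' W U κ ε T := by
  obtain ⟨U, h1, h2, h3, -, h5⟩ := H655.exists_sqz hC hΛ hK' hnull W hκ
  refine ⟨U, h1, fun i => (h2 i).trans H655.ocube_subset, h3, fun ε hε hε1 => ?_⟩
  obtain ⟨T, t1, t2, t3, t4, t5⟩ := h5 ε hε hε1
  refine ⟨T, t1, t2, t3, t4, fun y hy hyW => t5 y hy fun i hi => ?_⟩
  exact absurd (H655.oU_subset_cU W (mem_iUnion.2 ⟨i, hi⟩)) hyW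

theorem isOpen_diff_iUnion {ι : Type} {A : ι → Set V} (hΩ : IsOpen Ω) (h : LF A Ω)
    (hA : ∀ i, IsClosed (A i)) : IsOpen (Ω \ ⋃ i, A i) := by
  rw [isOpen_iff_mem_nhds]
  rintro x ⟨hx, hx'⟩
  obtain ⟨U, hU, hfin⟩ := h x hx
  have h1 : ∀ᶠ y in 𝓝 x, ∀ i ∈ {i | (A i ∩ U).Nonempty}, y ∉ A i := by
    rw [eventually_all_finite hfin]
    intro i _
    exact (hA i).isOpen_compl.mem_nhds fun h2 => hx' (mem_iUnion.2 ⟨i, h2⟩)
  filter_upwards [h1, hU, hΩ.mem_nhds hx] with y hy hyU hyΩ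
  refine ⟨hyΩ, fun h3 => ?_⟩
  obtain ⟨i, hi⟩ := mem_iUnion.1 h3
  exact hy i ⟨y, hi, hyU⟩ hi

/-- the part of `K` on the grid -/
def onGrid {v : V} (K : Set V) (X : BoxCx Ω v) : Set V := ⋃ s, K ∩ X.sq s

theorem onGrid_sub {v : V} (X : BoxCx Ω v) : onGrid K X ⊆ K :=
  iUnion_subset fun _ => inter_subset_left

theorem isOpen_diff_onGrid {v : V} (hΩ : IsOpen Ω) (hKo : IsOpen (Ω \ K)) (X : BoxCx Ω v) :
    IsOpen (Ω \ onGrid K X) := by
  have e : Ω \ onGrid K X = (Ω \ K) ∪ (Ω \ ⋃ s, X.sq s) := by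
    unfold onGrid
    rw [← inter_iUnion, sdiff_inter]
  rw [e]
  exact hKo.union (isOpen_diff_iUnion hΩ X.lfS fun s => isClosed_Icc)

theorem countable_of_LF' {ι : Type} {A : ι → Set V} {W : Set V} (h : LF A W)
    (hne : ∀ i, (A i ∩ W).Nonempty) : Countable ι := by
  choose! U hU hfin using h
  obtain ⟨t, htW, htc, hcov⟩ := TopologicalSpace.countable_cover_nhdsWithin
    (f := U) (s := W) (fun x hx => mem_nhdsWithin_of_mem_nhds (hU x hx))
  have h1 : (univ : Set ι) ⊆ ⋃ x ∈ t, {i | (A i ∩ U x).Nonempty} := by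
    intro i _
    obtain ⟨z, hz, hzW⟩ := hne i
    obtain ⟨x, hx, hzx⟩ := mem_iUnion₂.1 (hcov hzW)
    exact mem_biUnion hx ⟨z, hz, hzx⟩
  have h2 : (univ : Set ι).Countable :=
    Countable.mono h1 (htc.biUnion fun x hx => (hfin x (htW hx)).countable)
  exact countable_univ_iff.1 h2

theorem countable_S {v : V} (X : BoxCx Ω v) : Countable X.S := by
  refine countable_of_LF' X.lfS fun s => ?_
  have h1 : X.slo s ∈ X.sq s := ⟨le_rfl, fun k => H741.s_le X s k⟩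
  exact ⟨X.slo s, h1, X.sub _ ((H741.sq_sub_cubes X s).1 h1)⟩

theorem null_onGrid {v : V} (X : BoxCx Ω v) {f : V → V}
    (h : ∀ s, ∀ i, volume ((fun x : V => f x i) ''
      (K ∩ {x | x (X.nrm s) = X.slo s (X.nrm s)})) = 0) (l : Fin 3) :
    volume ((fun y : V => y l) '' (f '' onGrid K X)) = 0 := by
  have := countable_S X
  unfold onGrid
  rw [image_iUnion, image_iUnion, measure_iUnion_null_iff]
  intro s
  rw [← image_comp]
  refine measure_mono_null (image_mono ?_) (h s l)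
  rintro x ⟨hx, hxs⟩
  exact ⟨hx, H741.sq_nrm X hxs⟩

/-- the sides of a tile which is a cube -/
theorem box_eq {lo hi c : V} {r : ℝ} (hlt : ∀ k, lo k < hi k) (hr : 0 < r)
    (h : cube c r = Icc lo hi) (l : Fin 3) : lo l = c l - r ∧ hi l = c l + r := by
  have m1 : (fun k => c k - r) ∈ cube c r := fun k => by
    show |c k - r - c k| ≤ r
    rw [sub_sub_cancel_left, abs_neg, abs_of_pos hr]
  have m2 : (fun k => c k + r) ∈ cube c r := fun k => by
    show |c k + r - c k| ≤ r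
    rw [add_sub_cancel_left, abs_of_pos hr]
  have m3 : lo ∈ cube c r := by
    rw [h]; exact ⟨le_rfl, fun k => (hlt k).le⟩
  have m4 : hi ∈ cube c r := by
    rw [h]; exact ⟨fun k => (hlt k).le, le_rfl⟩
  rw [h] at m1 m2
  have a1 := m1.1 l
  have a2 := m2.2 l
  have a3 := abs_le.1 (m3 l)
  have a4 := abs_le.1 (m4 l)
  constructor
  · refine le_antisymm a1 ?_
    linarith [a3.1]
  · refine le_antisymm ?_ a2
    linarith [a4.2]

end Vale.Agent.P073.RT
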