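import Vale.Agent.P073.RT.An6

/-!
# P073, theorem (RT): analysis, part 7: one step, and the theorem over the topological rows
-/

namespace Vale.Agent.P073.RT

open MeasureTheory Set Filter Topology Metric
open Vale.Agent.P073.St (V Mat euc)
open Vale.Agent.P073.SQ (ev cube dE SuppDiffeo)
open Vale.Agent.P073.AB (cl err ofReal_norm_rpow diffeo_smooth diffeo_maps)
open Vale.Agent.P073.H655 (ocube oU cU FineOff SqzC)
open Vale.Agent.P073.H880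
open _root_.P073 (ConHomeo ConicalOn ConicalWithinAt)
open _root_.P073.PR720 (LF)
open _root_.P073.PA691 (BoxCx Cells)
open scoped ContDiff ENNReal

variable {p : ℝ} {Ω Λ K K' : Set V}

/-- the constant -/
noncomputable def A3 (p : ℝ) (Csq : ℝ≥0∞) (C D : ℝ) (v : ℝ≥0∞) : ℝ≥0∞ :=
  (ENNReal.ofReal ((2 * D) ^ p) + ENNReal.ofReal (2 ^ p) * v) +
    3 * (2 ^ (p - 1) * (Csq * B3 p C + 1 + 2 ^ (p - 1)) + C3 p C v)

theorem A3_ne_top {Csq : ℝ≥0∞} {C D : ℝ} {v : ℝ≥0∞} (hC : Csq ≠ ⊤) (hv : v ≠ ⊤) :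
    A3 p Csq C D v ≠ ⊤ := by
  unfold A3
  refine ENNReal.add_ne_top.2 ⟨ENNReal.add_ne_top.2 ⟨ENNReal.ofReal_ne_top,
    ENNReal.mul_ne_top ENNReal.ofReal_ne_top hv⟩, ENNReal.mul_ne_top (by simp)
    (ENNReal.add_ne_top.2 ⟨ENNReal.mul_ne_top two_rpow_ne_top (ENNReal.add_ne_top.2
      ⟨ENNReal.add_ne_top.2 ⟨ENNReal.mul_ne_top hC B3_ne_top, by simp⟩, two_rpow_ne_top⟩),
      C3_ne_top hv⟩)⟩

/-- the tiling and the cubes -/
structure TileData (Ω K : Set V) {v : V} (X : BoxCx Ω v) (W : Boxes Ω ∅) : Prop where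
  toTile : ∀ i, ∃ p, cube (W.c i) (W.ρ i) = X.cube p ∧ (X.cube p ∩ K).Nonempty
  ofTile : ∀ p, (X.cube p ∩ K).Nonempty → ∃ i, cube (W.c i) (W.ρ i) = X.cube p
  edge : ∀ x ∈ K, ∀ e, x ∉ X.edge e

theorem TileData.sub_cU {v : V} {X : BoxCx Ω v} {W : Boxes Ω ∅} (h : TileData Ω K X W)
    (hK : K ⊆ Ω) : K ⊆ cU W := by
  intro x hx
  obtain ⟨p, hp⟩ := X.cover x (hK hx)
  obtain ⟨i, hi⟩ := h.ofTile p ⟨x, hp, hx⟩
  exact mem_iUnion.2 ⟨i, hi ▸ hp⟩

theorem TileData.open_iff {v : V} {X : BoxCx Ω v} {W : Boxes Ω ∅} {i : W.ι} {q : X.T}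
    (h : cube (W.c i) (W.ρ i) = X.cube q) {x : V} (hx : ∀ l, X.lo q l < x l ∧ x l < X.hi q l)
    (l : Fin 3) : |x l - W.c i l| < W.ρ i := by
  obtain ⟨h1, h2⟩ := box_eq (X.lt q) (W.pos i) h l
  have h3 := hx l
  rw [h1, h2] at h3
  rw [abs_lt]
  constructor <;> linarith [h3.1, h3.2]

theorem TileData.face {v : V} {X : BoxCx Ω v} {W : Boxes Ω ∅} (h : TileData Ω K X W)
    {A : Set V} (hA : ∀ s, K ∩ X.sq s ⊆ A) (i : W.ι) (k : Fin 3) {σ : ℝ}
    (hσ : σ ∈ ({1, -1} : Finset ℝ)) {x : V} (hx : x ∈ cube (W.c i) (W.ρ i))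
    (hxk : x k = W.c i k + σ * W.ρ i) (hxK : x ∈ K) : x ∈ A := by
  obtain ⟨q, hq, -⟩ := h.toTile i
  obtain ⟨h1, h2⟩ := box_eq (X.lt q) (W.pos i) hq k
  have hxq : x ∈ X.cube q := hq ▸ hx
  have hk : x k = X.lo q k ∨ x k = X.hi q k := by
    rw [h1, h2, hxk]
    simp only [Finset.mem_insert, Finset.mem_singleton] at hσ
    rcases hσ with rfl | rfl
    · right; ring
    · left; ring
  obtain ⟨s, -, h3, h4⟩ := X.face_cover q x hxq ⟨k, hk⟩ (h.edge x hxK)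
  exact hA s ⟨hxK, H741.sqo_sub X s ⟨h3, h4⟩⟩

/-- one step of the approximation -/
theorem one_step3 (hp : 1 ≤ p) (hΩ : St.IsBoundedDomain Ω) (hΛ : St.IsBoundedDomain Λ)
    (hApp : SpecApp) (hTop : SpecTop) {f : V → V} {F : V → Mat} (hf : St.IsHomeo Ω Λ f)
    (hF : St.IsSobolev p Ω f F) (hK : K ⊆ Ω) (hKn : K.Nonempty) (hKo : IsOpen (Ω \ K))
    (hK0 : volume K = 0) (hO : FineOff Ω Λ K f F) (hsl : SmallSlices K f) {Csq : ℝ≥0∞}
    (hC : SqueezeC p Csq) {CT : ℝ} (hCT : SqzC CT) {D : ℝ} (hD : ∀ y ∈ Λ, ‖y‖ ≤ D) {t : ℝ}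
    (ht : 0 < t) (ht1 : t ≤ 1) :
    ∃ T, St.IsDiffeo Ω Λ T ∧ err p Ω f F T ≤
      A3 p Csq (max CT 1) D (volume Ω) * ENNReal.ofReal t := by
  obtain ⟨hO1, hae, -⟩ := hO
  have hpos : ∀ x ∈ Ω \ K, 0 < infDist x K := by
    intro x hx
    rw [← infDist_closure, ← (isClosed_closure.notMem_iff_infDist_pos hKn.closure)]
    intro hxc
    obtain ⟨y, hy, hyK⟩ := mem_closure_iff_nhds.1 hxc _ (hKo.mem_nhds hx)
    exact hy.2 hyK
  obtain ⟨g, hg, hgK, hgc, hgn, hgd⟩ := hO1 (fun x => min t (infDist x K))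
    ((continuous_const.min (continuous_infDist_pt K)).continuousOn)
    (fun x hx => lt_min ht (hpos x hx))
  have hgd' : ∀ x ∈ Ω \ K, ∀ᶠ y in 𝓝 x, ‖(g y - g x) - (f y - f x)‖ ≤ t * ‖y - x‖ := by
    intro x hx
    filter_upwards [hgd x hx] with y hy
    exact hy.trans (mul_le_mul_of_nonneg_right (min_le_left _ _) (norm_nonneg _))
  have hgcont : ContinuousOn g (Ω \ K) := by
    obtain ⟨k, -, h, -⟩ := hg
    exact h.mono sdiff_subset
  have hgcon := conicalOn_off hKo hgc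
  have hHm : Measurable (Hg p (Ω \ K) g) := measurable_Hg hKo hgcont
  have hHf := lintegral_Hg_ne_top hp hΩ hF hae ht.le ht1 hgd'
  have hHf' : ∫⁻ x in Ω, Hg p (Ω \ K) g x ≠ ⊤ := hHf
  have happ : App Ω Λ g := hApp p Ω Λ K f g F hp hΩ hΛ hf hF hg hK hKo hgK
    (fun _ x hx => (hgn x hx).trans (min_le_right _ _)) (fun x hx => by
      filter_upwards [hgd' x hx] with y hy
      exact hy.trans (mul_le_mul_of_nonneg_right ht1 (norm_nonneg _)))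
  obtain ⟨v, X, W, w1, w2, w3, w4, w5, w6, w7⟩ := H739.specTiling Ω K (Hg p (Ω \ K) g) t
    (fun k t => (∀ j, j ≠ k → volume ((fun x : V => x j) '' (K ∩ {x | x k = t})) = 0) ∧
      ∀ i, volume ((fun x : V => f x i) '' (K ∩ {x | x k = t})) = 0)
    hΩ.1 hΩ.2.1.nonempty (PK.isBounded_of_domain hΩ) hK hKo hsl
    (fun k => (hsl k).mono fun t h => h.1) hHm hHf' ht
  have TD : TileData Ω K X W := ⟨w1, w2, w3⟩
  have hKc : K ⊆ cU W := TD.sub_cU hK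
  have hGs : onGrid K X ⊆ K := onGrid_sub X
  have him : g '' onGrid K X = f '' onGrid K X := by
    refine image_congr fun x hx => hgK x (hGs hx)
  obtain ⟨N1, W2, κ, U, n1, n2, n3, n4, n5, k1, k2, k3, u1, u2, u3, u4⟩ :=
    target_data hp hCT hΩ hΛ (hGs.trans hK) (isOpen_diff_onGrid hΩ.1 hKo X) hg
      (fun l => by
        rw [him]
        exact null_onGrid X (fun s i => (w4 s).2 i) l)
      (measure_mono_null hGs hK0) hHf' ht
  have hUΛ : ∀ i, U i ⊆ Λ := fun i => (u2 i).trans (W2.sub i)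
  have hgc' : ContinuousOn g Ω := by
    obtain ⟨k, -, h, -⟩ := hg
    exact h
  obtain ⟨h, A, a1, a2, a3, a4, a5, a6⟩ := hTop Ω Λ K (Ω ∩ g ⁻¹' (⋃ i, U i)) g v X hΩ.1 hΩ.2.1
    hΛ.1 hΛ.2.1 hK hKo hg hgc happ w3
    (fun s j hj => measure_mono_null (image_mono fun x hx =>
      (⟨hx.1, H741.sq_nrm X hx.2⟩ : x ∈ K ∩ {x | x (X.nrm s) = X.slo s (X.nrm s)}))
      ((w4 s).1 j hj))
    (hgc'.isOpen_inter_preimage hΩ.1 (isOpen_iUnion u1)) inter_subset_left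
    (fun s x hx => ⟨hK hx.1, u3 ⟨x, mem_iUnion.2 ⟨s, hx⟩, rfl⟩⟩)
  have hAU : ∀ x ∈ A, h.toFun x ∈ ⋃ i, U i := by
    intro x hx
    obtain ⟨y, hy, hy'⟩ := a4 x hx
    rw [← hy']
    exact hy.2
  have hAc : ∀ x ∈ A, x ∈ cU W := by
    intro x hx
    obtain ⟨q, hq, hxq⟩ := a5 x hx
    obtain ⟨i, hi⟩ := w2 q hq
    exact mem_iUnion.2 ⟨i, hi ▸ hxq⟩
  have hh : ∀ x ∈ Ω, x ∉ A → (∀ i, ¬ ∀ l, |x l - W.c i l| < W.ρ i) → h.toFun x = g x := by
    intro x hx hxA hi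
    refine a6 x hx hxA fun q hq hl => ?_
    obtain ⟨i, hi'⟩ := w2 q hq
    exact hi i (TileData.open_iff hi' hl)
  have hoff : ∀ x ∈ Ω, x ∉ cU W → h.toFun x = g x := fun x hx hx' =>
    hh x hx (fun h => hx' (hAc x h)) fun i hi => hx' (mem_iUnion.2 ⟨i, fun l => (hi l).le⟩)
  have := W.cnt
  have := W2.cnt
  obtain ⟨e, he, hes⟩ := exists_weights W.ι ht
  obtain ⟨e', he', hes'⟩ := exists_weights W2.ι ht
  obtain ⟨G, hG, hGc, hGf, hGd, hGA, hGN⟩ := exists_G hp hΩ hΛ hg W h a2 u1 hUΛ hAU n2 n4 W2 n5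
    hoff ht he
  obtain ⟨ε, ε1, ε2, ε3⟩ := exists_ratio hp (ι := W2.ι)
    (E := fun m => ∑' q, facesU p W G (U m) q)
    (fun m => tsum_facesU_ne_top hp hG hΩ.1 W (u2 m) (H655.isCompact_cube (W2.pos m)) (W2.sub m))
    he'
  obtain ⟨T, hT⟩ := u4 ε ε1 ε2
  have hTG : St.IsDiffeo Ω Λ (T ∘ G) := AB.isDiffeo_comp hG hT.diffeo
  obtain ⟨S, hS, hSid, hSE⟩ := hC Ω Λ ∅ W (T ∘ G) (fun i => ENNReal.ofReal (e i)) hΩ.1 hTG
    (fun i => (ENNReal.ofReal_pos.2 (he i)).ne')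
  have hP : St.IsDiffeo Ω Λ ((T ∘ G) ∘ S) := AB.isDiffeo_comp hS hTG
  refine ⟨(T ∘ G) ∘ S, hP, ?_⟩
  have hcm := measurableSet_cU W
  have hΩm := hΩ.1.measurableSet
  have hC1 : (0 : ℝ) ≤ max CT 1 := le_trans zero_le_one (le_max_right _ _)
  -- order zero
  have z := zero_part hp (T := (T ∘ G) ∘ S) (f := f) hcm (D := 2 * D) ht.le ht1 hΩm
    (fun x hx => by
      have h1 := hD _ (diffeo_maps hP hx)
      have h2 := hD _ (homeo_maps hf hx)
      have h3 := norm_sub_le (((T ∘ G) ∘ S) x) (f x)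
      linarith)
    (fun x hx hxc => by
      have h1 := hGc x hx
      have h2 : ‖g x - f x‖ ≤ t :=
        (hgn x ⟨hx, fun h => hxc (hKc h)⟩).trans (min_le_left _ _)
      have h3 : ((T ∘ G) ∘ S) x = T (G x) := by
        show T (G (S x)) = T (G x)
        rw [hSid x hxc]
      have h5 := (hT.near _ (diffeo_maps hG hx)).trans k2
      rw [hoff x hx hxc] at h1
      rw [h3]
      have h4 := norm_add_le (G x - g x) (g x - f x)
      rw [sub_add_sub_cancel] at h4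
      have h6 := norm_add_le (T (G x) - G x) (G x - f x)
      rw [sub_add_sub_cancel] at h6
      linarith) w5
  -- the derivatives
  have hKnull := hK0
  rw [measure_eq_zero_iff_ae_notMem] at hKnull
  have d : ∀ j, ∫⁻ x in Ω,
      ENNReal.ofReal (‖fderiv ℝ ((T ∘ G) ∘ S) x (ev j) - cl (F x) (ev j)‖ ^ p) ≤
      2 ^ (p - 1) * (Csq * B3 p (max CT 1) + 1 + 2 ^ (p - 1)) * ENNReal.ofReal t +
        C3 p (max CT 1) (volume Ω) * ENNReal.ofReal t := by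
    intro j
    rw [← lintegral_inter_add_sdiff _ Ω hcm]
    refine add_le_add ((lintegral_mono_set inter_subset_right).trans ?_) ?_
    · refine on_part' hp W (e := e) (Φ := facesE p W (T ∘ G)) ?_ two_rpow_ne_top hHm w6 hSE ?_ hes
      · filter_upwards [hKnull, F_le_Hg hp hKo hgcont hgcon hae ht.le ht1 hgd' j]
          with x hx1 hx2 hx
        exact hx2 ⟨H655.cU_subset W hx, hx1⟩
      · exact faces_sum3 W (fun i => facesE_le3 hp hΩ.1 hΛ.1 hKo hgcont W a2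
          (fun i k σ hσ x hx hxk hxK => TD.face a3 i k hσ hx hxk hxK) hh u1 hC1 ε1 hG hT hGA i
          (hGf i)) hes w7 ε3 hes'
    · exact off_part3 hp hΩ hΛ hKo hae ht.le ht1 hgcont hgd' W hKc h hoff hG hC1 k1.le hT hSid n1
        hGN hGd n3 k3 j
  unfold err A3
  refine (add_le_add z (Finset.sum_le_sum fun j _ => d j)).trans (le_of_eq ?_)
  rw [Finset.sum_const, Finset.card_univ, Fintype.card_fin, nsmul_eq_mul]
  push_cast
  ring

end Vale.Agent.P073.RT
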